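import Mathlib

/-!
P037: ordered copies of a binary pattern, and the distance from pattern-freeness.
-/

namespace P037

/-- `r` and `c` are the rows and columns of an ordered copy of `H` in `A` -/
def IsCopy {k : ℕ} {α β : Type*} [Preorder α] [Preorder β] (H : Fin k → Fin k → Bool)
    (A : α → β → Bool) (r : Fin k → α) (c : Fin k → β) : Prop :=
  StrictMono r ∧ StrictMono c ∧ ∀ i j, A (r i) (c j) = H i j

/-- the number of ordered copies of `H` in `A` -/
noncomputable def copies {k n : ℕ} (H : Fin k → Fin k → Bool) (A : Fin n → Fin n → Bool) : ℕ :=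
  Nat.card {p : (Fin k → Fin n) × (Fin k → Fin n) // IsCopy H A p.1 p.2}

/-- `A` has no ordered copy of `H` -/
def HFree {k n : ℕ} (H : Fin k → Fin k → Bool) (A : Fin n → Fin n → Bool) : Prop :=
  ∀ r c, ¬ IsCopy H A r c

/-- the number of entries where `A` and `B` differ -/
noncomputable def diffs {α β : Type*} (A B : α → β → Bool) : ℕ :=
  Nat.card {p : α × β // A p.1 p.2 ≠ B p.1 p.2}

/-- the distance of `A` from the `H`-free matrices -/
noncomputable def hdist {k n : ℕ} (H : Fin k → Fin k → Bool) (A : Fin n → Fin n → Bool) : ℝ :=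
  (sInf {m : ℕ | ∃ B : Fin n → Fin n → Bool, HFree H B ∧ diffs A B = m} : ℕ) / (n : ℝ) ^ 2

end P037
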