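import Vale.Agent.P037.Defs

/-!
P037, module Count: the number of copies.
-/

namespace P037

theorem card_two_coords {n : ℕ} (P : Fin n → Fin n → Prop) :
    Nat.card {p : (Fin 15 → Fin n) × (Fin 15 → Fin n) // P (p.1 12) (p.2 13)} =
      n ^ 28 * Nat.card {q : Fin n × Fin n // P q.1 q.2} := by
  classical
  let e1 : (Fin 15 → Fin n) × (Fin 15 → Fin n) ≃
      (Fin n × Fin n) × (({j : Fin 15 // j ≠ 12} → Fin n) × ({j : Fin 15 // j ≠ 13} → Fin n)) :=
    (Equiv.prodCongr (Equiv.funSplitAt (12 : Fin 15) (Fin n))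
      (Equiv.funSplitAt (13 : Fin 15) (Fin n))).trans (Equiv.prodProdProdComm _ _ _ _)
  have e2 : {p : (Fin 15 → Fin n) × (Fin 15 → Fin n) // P (p.1 12) (p.2 13)} ≃
      {q : (Fin n × Fin n) × (({j : Fin 15 // j ≠ 12} → Fin n) × ({j : Fin 15 // j ≠ 13} → Fin n)) //
        P q.1.1 q.1.2} := Equiv.subtypeEquiv e1 fun p => Iff.rfl
  have e3 : {q : (Fin n × Fin n) × (({j : Fin 15 // j ≠ 12} → Fin n) ×
      ({j : Fin 15 // j ≠ 13} → Fin n)) // P q.1.1 q.1.2} ≃
      {q : Fin n × Fin n // P q.1 q.2} × (({j : Fin 15 // j ≠ 12} → Fin n) ×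
        ({j : Fin 15 // j ≠ 13} → Fin n)) :=
    Equiv.prodSubtypeFstEquivSubtypeProd (p := fun q : Fin n × Fin n => P q.1 q.2)
  have h12 : Fintype.card {j : Fin 15 // j ≠ 12} = 14 := by decide
  have h13 : Fintype.card {j : Fin 15 // j ≠ 13} = 14 := by decide
  rw [Nat.card_congr (e2.trans e3), Nat.card_prod, Nat.card_prod, Nat.card_eq_fintype_card
    (α := {j : Fin 15 // j ≠ 12} → Fin n), Nat.card_eq_fintype_card
    (α := {j : Fin 15 // j ≠ 13} → Fin n), Fintype.card_fun, Fintype.card_fun, h12, h13,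
    Fintype.card_fin, ← pow_add, mul_comm]

/-- bound on the copies, from the statement `copy_tiny` -/
theorem copies_le_of {L M : ℕ} (hL : 1 ≤ L)
    (hct : ∀ {r : Fin 15 → Row L M} {c : Fin 15 → Col L M}, IsCopy H (mat L M) r c →
      (r 12).g = RG.mid ⟨L - 1, by omega⟩ ∧ (c 13).g = CG.mid (Fin.last L) ∧
        (r 12).x.1 = (c 13).x.1) (eR : Fin (N L M) ≃o Row L M)
    (eC : Fin (N L M) ≃o Col L M) :
    copies H (fun i j => mat L M (eR i) (eC j)) * 2 ^ L ≤ N L M ^ 30 := by
  set P : Fin (N L M) → Fin (N L M) → Prop := fun i j =>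
    (eR i).g = RG.mid ⟨L - 1, by omega⟩ ∧ (eC j).g = CG.mid (Fin.last L) ∧
      (eR i).x.1 = (eC j).x.1 with hP
  have h1 : copies H (fun i j => mat L M (eR i) (eC j)) ≤
      Nat.card {p : (Fin 15 → Fin (N L M)) × (Fin 15 → Fin (N L M)) // P (p.1 12) (p.2 13)} := by
    unfold copies
    refine Nat.card_le_card_of_injective (fun p => ⟨p.1, ?_⟩) fun p q hpq => ?_
    · obtain ⟨⟨r, c⟩, hr, hc, h⟩ := p
      have h2 : IsCopy H (mat L M) (fun i => eR (r i)) (fun j => eC (c j)) :=
        ⟨fun a b hab => eR.strictMono (hr hab), fun a b hab => eC.strictMono (hc hab), h⟩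
      exact hct h2
    · exact Subtype.ext (Subtype.mk.inj hpq)
  rw [card_two_coords] at h1
  have h2 : Nat.card {q : Fin (N L M) × Fin (N L M) // P q.1 q.2} ≤ 2 ^ L * M * M := by
    have h3 : Nat.card {q : Fin (N L M) × Fin (N L M) // P q.1 q.2} ≤
        Nat.card (Loc L M × Fin M) := by
      refine Nat.card_le_card_of_injective
        (fun q => ((eR q.1.1).x, (eC q.1.2).x.2)) fun p q hpq => ?_
      obtain ⟨⟨a, b⟩, h4, h5, h6⟩ := p
      obtain ⟨⟨a', b'⟩, h4', h5', h6'⟩ := q
      simp only [Prod.mk.injEq] at hpq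
      obtain ⟨h7, h8⟩ := hpq
      have ha : a = a' := by
        apply eR.injective
        have e1 : (eR a).g = (eR a').g := h4.trans h4'.symm
        cases hx : eR a
        cases hy : eR a'
        rw [hx, hy] at e1 h7
        simp only at e1 h7
        rw [e1, h7]
      have hb : b = b' := by
        apply eC.injective
        have e1 : (eC b).g = (eC b').g := h5.trans h5'.symm
        have e2 : (eC b).x.1 = (eC b').x.1 := by
          simp only at h6 h6'
          rw [← h6, ← h6', h7]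
        have e3 : (eC b).x = (eC b').x := Prod.ext e2 h8
        cases hx : eC b
        cases hy : eC b'
        rw [hx, hy] at e1 e3
        simp only at e1 e3
        rw [e1, e3]
      subst ha hb
      rfl
    refine h3.trans (le_of_eq ?_)
    rw [Nat.card_prod, Nat.card_prod, Nat.card_eq_fintype_card, Nat.card_eq_fintype_card,
      Fintype.card_fin, Fintype.card_fin]
  have h4 : 2 ^ L * M ≤ N L M := by
    unfold N G
    exact Nat.le_mul_of_pos_left _ (by omega)
  calc copies H (fun i j => mat L M (eR i) (eC j)) * 2 ^ L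
      ≤ N L M ^ 28 * Nat.card {q : Fin (N L M) × Fin (N L M) // P q.1 q.2} * 2 ^ L :=
        Nat.mul_le_mul_right _ h1
    _ ≤ N L M ^ 28 * (2 ^ L * M * M) * 2 ^ L :=
        Nat.mul_le_mul_right _ (Nat.mul_le_mul_left _ h2)
    _ = N L M ^ 28 * ((2 ^ L * M) * (2 ^ L * M)) := by ring
    _ ≤ N L M ^ 28 * (N L M * N L M) := Nat.mul_le_mul_left _ (Nat.mul_le_mul h4 h4)
    _ = N L M ^ 30 := by ring

end P037
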