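import Vale.Agent.P037.Basic

/-!
P037: the polynomial ordered binary matrix-removal conjecture is false.
Definitions: the pattern `H` (15 x 15) and the hard matrices `mat L M`.
-/

namespace P037

/-! ### The pattern -/

/-- the parts of the index set of the pattern: one reference index, eleven separators, three
main indices -/
inductive Part : Type
  | ref : Part
  | sep (i : Fin 11) : Part
  | p1 : Part
  | p2 : Part
  | p3 : Part
deriving DecidableEq, Fintype

/-- the pattern on parts -/
def Hp : Part → Part → Bool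
  | .sep i, .sep j => decide (i ≠ j)
  | .sep _, .ref => false
  | .sep _, .p1 => false
  | .sep _, .p2 => false
  | .sep _, .p3 => false
  | .ref, .sep _ => false
  | .p1, .sep _ => false
  | .p2, .sep _ => false
  | .p3, .sep _ => false
  | .p2, .p2 => false
  | .ref, .ref => true
  | .ref, .p1 => true
  | .ref, .p2 => true
  | .ref, .p3 => true
  | .p1, .ref => true
  | .p1, .p1 => true
  | .p1, .p2 => true
  | .p1, .p3 => true
  | .p2, .ref => true
  | .p2, .p1 => true
  | .p2, .p3 => true
  | .p3, .ref => true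
  | .p3, .p1 => true
  | .p3, .p2 => true
  | .p3, .p3 => true

/-- position of a part -/
def idx : Part → Fin 15
  | .ref => 0
  | .sep i => ⟨i.val + 1, by omega⟩
  | .p1 => 12
  | .p2 => 13
  | .p3 => 14

/-- the part at a position -/
def part (i : Fin 15) : Part :=
  if i.val = 0 then .ref
  else if h : i.val ≤ 11 then .sep ⟨i.val - 1, by omega⟩
  else if i.val = 12 then .p1
  else if i.val = 13 then .p2
  else .p3

/-- the pattern -/
def H (i j : Fin 15) : Bool := Hp (part i) (part j)

/-! ### The matrices -/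

/-- the index set of the reference rows and columns -/
inductive Ref (L : ℕ) : Type
  | C (s : Fin (L + 1)) (b : Bool) : Ref L
  | R (s : Fin L) (b : Bool) : Ref L
deriving DecidableEq, Fintype

/-- row groups; `mid s` is the main row class of level `s + 1` -/
inductive RG (L : ℕ) : Type
  | f (κ : Ref L) : RG L
  | sep (i : Fin 11) : RG L
  | top : RG L
  | mid (s : Fin L) : RG L
  | low : RG L
  | bot : RG L
deriving DecidableEq, Fintype

/-- column groups; `mid s` is the main column class of level `s` -/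
inductive CG (L : ℕ) : Type
  | e (κ : Ref L) : CG L
  | sep (i : Fin 11) : CG L
  | cm : CG L
  | mid (s : Fin (L + 1)) : CG L
  | cp : CG L
deriving DecidableEq, Fintype

/-- the cell of level `s` that contains the place `t < 2 ^ L` -/
def cell (L s t : ℕ) : ℕ := t / 2 ^ (L - s)

/-- digit number `s` of the place `t` -/
def bit (L s t : ℕ) : Bool := decide (cell L s t % 2 = 1)

/-- the entries -/
def val (L : ℕ) : RG L → ℕ → CG L → ℕ → Bool
  | .f κ, _, .e κ', _ => decide (κ = κ')
  | .f _, _, .sep _, _ => false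
  | .f (.C _ _), _, .cm, _ => true
  | .f (.C _ _), _, .cp, _ => true
  | .f (.R _ _), _, .cm, _ => false
  | .f (.R _ _), _, .cp, _ => false
  | .f (.C s b), _, .mid s', y => decide (s'.val = s.val ∧ bit L s.val y = b)
  | .f (.R s b), _, .mid s', y =>
      decide ((s'.val = s.val + 1 ∧ bit L (s.val + 1) y = b) ∨ s'.val = s.val)
  | .sep i, _, .sep j, _ => decide (i ≠ j)
  | .sep _, _, .e _, _ => false
  | .sep _, _, .cm, _ => false
  | .sep _, _, .mid _, _ => false
  | .sep _, _, .cp, _ => false
  | .top, _, .e (.C s _), _ => decide (s.val = 0)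
  | .top, _, .e (.R _ _), _ => true
  | .top, _, .sep _, _ => false
  | .top, _, .cm, _ => true
  | .top, _, .mid _, _ => true
  | .top, _, .cp, _ => true
  | .mid s, x, .e (.C s' b), _ =>
      decide ((s'.val = s.val + 1 ∧ bit L (s.val + 1) x = b) ∨ s'.val = s.val)
  | .mid s, x, .e (.R s' b), _ => decide (s'.val = s.val ∧ bit L (s.val + 1) x = b)
  | .mid _, _, .sep _, _ => false
  | .mid _, _, .cm, _ => true
  | .mid _, _, .cp, _ => true
  | .mid s, x, .mid s', y =>
      decide ((s'.val = s.val + 1 ∧ cell L (s.val + 1) x = cell L (s.val + 1) y) ∨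
        (s'.val = s.val ∧ cell L s.val x = cell L s.val y))
  | .low, _, .e (.C s _), _ => decide (s.val = L)
  | .low, _, .e (.R _ _), _ => false
  | .low, _, .sep _, _ => false
  | .low, _, .mid _, _ => false
  | .low, _, .cm, _ => true
  | .low, _, .cp, _ => true
  | .bot, _, .e (.C s _), _ => decide (s.val = 0 ∨ s.val = L)
  | .bot, _, .e (.R _ _), _ => true
  | .bot, _, .sep _, _ => false
  | .bot, _, .cm, _ => true
  | .bot, _, .mid _, _ => true
  | .bot, _, .cp, _ => true

/-- the places: a tiny cell and a round inside it -/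
abbrev Loc (L M : ℕ) : Type := Fin (2 ^ L) × Fin M

/-- rows -/
structure Row (L M : ℕ) : Type where
  g : RG L
  x : Loc L M
deriving Fintype

/-- columns -/
structure Col (L M : ℕ) : Type where
  g : CG L
  x : Loc L M
deriving Fintype

/-- the matrix -/
def mat (L M : ℕ) (a : Row L M) (b : Col L M) : Bool := val L a.g a.x.1 b.g b.x.1

/-! ### The order -/

/-- block number of a row group -/
def RG.rank {L : ℕ} : RG L → ℕ
  | .f _ => 0
  | .sep _ => 1
  | .top => 2
  | .mid _ => 3
  | .low => 4
  | .bot => 5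

/-- block number of a column group -/
def CG.rank {L : ℕ} : CG L → ℕ
  | .e _ => 0
  | .sep _ => 1
  | .cm => 2
  | .mid _ => 3
  | .cp => 4

/-- sorting key of a row -/
noncomputable def rkey {L M : ℕ} (a : Row L M) : ℕ ×ₗ ℕ ×ₗ ℕ ×ₗ ℕ :=
  match a with
  | ⟨.f κ, x⟩ => toLex (0, toLex ((Fintype.equivFin (Ref L) κ).val, toLex (x.1.val, x.2.val)))
  | ⟨.sep i, x⟩ => toLex (1, toLex (i.val, toLex (x.1.val, x.2.val)))
  | ⟨.top, x⟩ => toLex (2, toLex (0, toLex (x.1.val, x.2.val)))
  | ⟨.mid s, x⟩ => toLex (3, toLex (x.1.val, toLex (x.2.val, s.val)))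
  | ⟨.low, x⟩ => toLex (4, toLex (0, toLex (x.1.val, x.2.val)))
  | ⟨.bot, x⟩ => toLex (5, toLex (0, toLex (x.1.val, x.2.val)))

/-- sorting key of a column -/
noncomputable def ckey {L M : ℕ} (a : Col L M) : ℕ ×ₗ ℕ ×ₗ ℕ ×ₗ ℕ :=
  match a with
  | ⟨.e κ, x⟩ => toLex (0, toLex ((Fintype.equivFin (Ref L) κ).val, toLex (x.1.val, x.2.val)))
  | ⟨.sep i, x⟩ => toLex (1, toLex (i.val, toLex (x.1.val, x.2.val)))
  | ⟨.cm, x⟩ => toLex (2, toLex (0, toLex (x.1.val, x.2.val)))
  | ⟨.mid s, x⟩ => toLex (3, toLex (x.1.val, toLex (x.2.val, s.val)))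
  | ⟨.cp, x⟩ => toLex (4, toLex (0, toLex (x.1.val, x.2.val)))

theorem rkey_injective {L M : ℕ} : Function.Injective (rkey : Row L M → _) := by
  rintro ⟨g, x1, x2⟩ ⟨g', y1, y2⟩ h
  cases g <;> cases g' <;>
    simp only [rkey, Prod.mk.injEq, Fin.val_inj, EmbeddingLike.apply_eq_iff_eq,
      Nat.reduceEqDiff, false_and, OfNat.ofNat_ne_zero, OfNat.zero_ne_ofNat, zero_ne_one,
      one_ne_zero, OfNat.ofNat_ne_one, OfNat.one_ne_ofNat, true_and] at h <;>
    simp_all

theorem ckey_injective {L M : ℕ} : Function.Injective (ckey : Col L M → _) := by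
  rintro ⟨g, x1, x2⟩ ⟨g', y1, y2⟩ h
  cases g <;> cases g' <;>
    simp only [ckey, Prod.mk.injEq, Fin.val_inj, EmbeddingLike.apply_eq_iff_eq,
      Nat.reduceEqDiff, false_and, OfNat.ofNat_ne_zero, OfNat.zero_ne_ofNat, zero_ne_one,
      one_ne_zero, OfNat.ofNat_ne_one, OfNat.one_ne_ofNat, true_and] at h <;>
    simp_all

noncomputable instance {L M : ℕ} : LinearOrder (Row L M) := LinearOrder.lift' rkey rkey_injective

noncomputable instance {L M : ℕ} : LinearOrder (Col L M) := LinearOrder.lift' ckey ckey_injective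

/-- number of groups -/
def G (L : ℕ) : ℕ := 5 * L + 16

/-- number of rows and of columns -/
def N (L M : ℕ) : ℕ := G L * (2 ^ L * M)

end P037
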