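import Vale.Agent.P037.Defs

/-!
P037, module Frame: averaging over the places of the frame.
-/

namespace P037

open Finset

section

variable {L M : ℕ}

/-- row groups outside of the main block -/
def FrR (g : RG L) : Prop := ∀ s, g ≠ RG.mid s

/-- column groups outside of the main block -/
def FrC (h : CG L) : Prop := ∀ s, h ≠ CG.mid s

/-- some frame-frame entry is changed -/
def Q1 (B : Row L M → Col L M → Bool) (x y : Loc L M) : Prop :=
  ∃ g h, FrR g ∧ FrC h ∧ mat L M ⟨g, x⟩ ⟨h, y⟩ ≠ B ⟨g, x⟩ ⟨h, y⟩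

/-- some main-frame entry is changed -/
def Q2 (B : Row L M → Col L M → Bool) (z y : Loc L M) : Prop :=
  ∃ s h, FrC h ∧ mat L M ⟨.mid s, z⟩ ⟨h, y⟩ ≠ B ⟨.mid s, z⟩ ⟨h, y⟩

/-- some frame-main entry is changed -/
def Q3 (B : Row L M → Col L M → Bool) (x z : Loc L M) : Prop :=
  ∃ g s, FrR g ∧ mat L M ⟨g, x⟩ ⟨.mid s, z⟩ ≠ B ⟨g, x⟩ ⟨.mid s, z⟩

theorem card_Q_le (B : Row L M → Col L M → Bool) :
    Nat.card {p : Loc L M × Loc L M // Q1 B p.1 p.2} +
      (Nat.card {p : Loc L M × Loc L M // Q2 B p.1 p.2} +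
        Nat.card {p : Loc L M × Loc L M // Q3 B p.1 p.2}) ≤ diffs (mat L M) B := by
  classical
  unfold diffs
  rw [← Nat.card_sum, ← Nat.card_sum]
  have h1 : ∀ p : {p : Loc L M × Loc L M // Q1 B p.1 p.2}, ∃ g h, FrR g ∧ FrC h ∧
      mat L M ⟨g, p.1.1⟩ ⟨h, p.1.2⟩ ≠ B ⟨g, p.1.1⟩ ⟨h, p.1.2⟩ := fun p => p.2
  have h2 : ∀ p : {p : Loc L M × Loc L M // Q2 B p.1 p.2}, ∃ s h, FrC h ∧
      mat L M ⟨.mid s, p.1.1⟩ ⟨h, p.1.2⟩ ≠ B ⟨.mid s, p.1.1⟩ ⟨h, p.1.2⟩ := fun p => p.2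
  have h3 : ∀ p : {p : Loc L M × Loc L M // Q3 B p.1 p.2}, ∃ g s, FrR g ∧
      mat L M ⟨g, p.1.1⟩ ⟨.mid s, p.1.2⟩ ≠ B ⟨g, p.1.1⟩ ⟨.mid s, p.1.2⟩ := fun p => p.2
  choose g1 k1 hg1 hk1 hd1 using h1
  choose s2 k2 hk2 hd2 using h2
  choose g3 s3 hg3 hd3 using h3
  have : Finite {p : Row L M × Col L M // mat L M p.1 p.2 ≠ B p.1 p.2} := inferInstance
  let F : {p : Loc L M × Loc L M // Q1 B p.1 p.2} ⊕ ({p : Loc L M × Loc L M // Q2 B p.1 p.2} ⊕
      {p : Loc L M × Loc L M // Q3 B p.1 p.2}) →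
      {p : Row L M × Col L M // mat L M p.1 p.2 ≠ B p.1 p.2} := fun q =>
    match q with
    | .inl p => ⟨(⟨g1 p, p.1.1⟩, ⟨k1 p, p.1.2⟩), hd1 p⟩
    | .inr (.inl p) => ⟨(⟨.mid (s2 p), p.1.1⟩, ⟨k2 p, p.1.2⟩), hd2 p⟩
    | .inr (.inr p) => ⟨(⟨g3 p, p.1.1⟩, ⟨.mid (s3 p), p.1.2⟩), hd3 p⟩
  refine Nat.card_le_card_of_injective F fun p q hpq => ?_
  have hv := congrArg Subtype.val hpq
  rcases p with p | p | p <;> rcases q with q | q | q <;>
    simp only [F, Prod.mk.injEq, Row.mk.injEq, Col.mk.injEq] at hv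
  · congr 1
    exact Subtype.ext (Prod.ext hv.1.2 hv.2.2)
  · exact absurd hv.1.1 (hg1 p _)
  · exact absurd hv.2.1 (hk1 p _)
  · exact absurd hv.1.1.symm (hg1 q _)
  · congr 2
    exact Subtype.ext (Prod.ext hv.1.2 hv.2.2)
  · exact absurd hv.2.1 (hk2 p _)
  · exact absurd hv.2.1.symm (hk1 q _)
  · exact absurd hv.2.1.symm (hk2 q _)
  · congr 2
    exact Subtype.ext (Prod.ext hv.1.2 hv.2.2)

open Classical in
theorem card_eq_sum (Q : Loc L M → Loc L M → Prop) :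
    Nat.card {p : Loc L M × Loc L M // Q p.1 p.2} = ∑ x, ∑ y, if Q x y then 1 else 0 := by
  rw [Nat.card_eq_fintype_card, Fintype.card_subtype, Finset.card_filter, Fintype.sum_prod_type]

theorem exists_frame {L M : ℕ} (B : Row L M → Col L M → Bool)
    (hB : 2 * diffs (mat L M) B < (2 ^ L * M) ^ 2) :
    ∃ (x y : Loc L M) (t : Fin (2 ^ L)) (U V : Finset (Fin M)),
      M < 2 * U.card ∧ M < 2 * V.card ∧
      (∀ g h, (∀ s, g ≠ RG.mid s) → (∀ s, h ≠ CG.mid s) →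
        B ⟨g, x⟩ ⟨h, y⟩ = mat L M ⟨g, x⟩ ⟨h, y⟩) ∧
      (∀ u ∈ U, ∀ s h, (∀ s, h ≠ CG.mid s) →
        B ⟨.mid s, (t, u)⟩ ⟨h, y⟩ = mat L M ⟨.mid s, (t, u)⟩ ⟨h, y⟩) ∧
      (∀ v ∈ V, ∀ g s, (∀ s, g ≠ RG.mid s) →
        B ⟨g, x⟩ ⟨.mid s, (t, v)⟩ = mat L M ⟨g, x⟩ ⟨.mid s, (t, v)⟩) := by
  classical
  have hW : Fintype.card (Loc L M) = 2 ^ L * M := by
    rw [Fintype.card_prod, Fintype.card_fin, Fintype.card_fin]
  have hM : 0 < M := by
    by_contra h
    have h0 : M = 0 := by omega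
    subst h0
    simp at hB
  -- a good triple
  have key : ∃ (x y : Loc L M) (t : Fin (2 ^ L)),
      2 * (M * (if Q1 B x y then 1 else 0) + (∑ u : Fin M, if Q2 B (t, u) y then 1 else 0) +
        ∑ v : Fin M, if Q3 B x (t, v) then 1 else 0) < M := by
    by_contra! hcon
    have h1 : ∑ x : Loc L M, ∑ y : Loc L M, ∑ _t : Fin (2 ^ L), M ≤
        ∑ x : Loc L M, ∑ y : Loc L M, ∑ t : Fin (2 ^ L),
          2 * (M * (if Q1 B x y then 1 else 0) + (∑ u : Fin M, if Q2 B (t, u) y then 1 else 0) +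
            ∑ v : Fin M, if Q3 B x (t, v) then 1 else 0) :=
      Finset.sum_le_sum fun x _ => Finset.sum_le_sum fun y _ => Finset.sum_le_sum fun t _ =>
        hcon x y t
    have e0 : ∑ x : Loc L M, ∑ y : Loc L M, ∑ _t : Fin (2 ^ L), M =
        (2 ^ L * M) * ((2 ^ L * M) * (2 ^ L * M)) := by
      simp only [Finset.sum_const, Finset.card_univ, hW, Fintype.card_fin, smul_eq_mul]
    have e1 : ∑ x : Loc L M, ∑ y : Loc L M, ∑ _t : Fin (2 ^ L), M * (if Q1 B x y then 1 else 0) =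
        (2 ^ L * M) * Nat.card {p : Loc L M × Loc L M // Q1 B p.1 p.2} := by
      rw [card_eq_sum]
      simp only [Finset.sum_const, Finset.card_univ, Fintype.card_fin, smul_eq_mul,
        Finset.mul_sum]
      refine Finset.sum_congr rfl fun x _ => Finset.sum_congr rfl fun y _ => ?_
      ring
    have e2 : ∑ x : Loc L M, ∑ y : Loc L M, ∑ t : Fin (2 ^ L),
        (∑ u : Fin M, if Q2 B (t, u) y then 1 else 0) =
        (2 ^ L * M) * Nat.card {p : Loc L M × Loc L M // Q2 B p.1 p.2} := by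
      rw [card_eq_sum, Finset.sum_const, Finset.card_univ, hW, smul_eq_mul]
      congr 1
      rw [Finset.sum_comm (s := (Finset.univ : Finset (Loc L M))) (t := Finset.univ)
        (f := fun z y => if Q2 B z y then 1 else 0)]
      refine Finset.sum_congr rfl fun y _ => ?_
      rw [Fintype.sum_prod_type]
    have e3 : ∑ x : Loc L M, ∑ y : Loc L M, ∑ t : Fin (2 ^ L),
        (∑ v : Fin M, if Q3 B x (t, v) then 1 else 0) =
        (2 ^ L * M) * Nat.card {p : Loc L M × Loc L M // Q3 B p.1 p.2} := by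
      rw [card_eq_sum, Finset.mul_sum]
      refine Finset.sum_congr rfl fun x _ => ?_
      rw [Finset.sum_const, Finset.card_univ, hW, smul_eq_mul, Fintype.sum_prod_type]
    have h2 := card_Q_le B
    have e4 : ∑ x : Loc L M, ∑ y : Loc L M, ∑ t : Fin (2 ^ L),
          2 * (M * (if Q1 B x y then 1 else 0) + (∑ u : Fin M, if Q2 B (t, u) y then 1 else 0) +
            ∑ v : Fin M, if Q3 B x (t, v) then 1 else 0) =
        2 * (∑ x : Loc L M, ∑ y : Loc L M, ∑ _t : Fin (2 ^ L), M * (if Q1 B x y then 1 else 0) +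
          ∑ x : Loc L M, ∑ y : Loc L M, ∑ t : Fin (2 ^ L),
            (∑ u : Fin M, if Q2 B (t, u) y then 1 else 0) +
          ∑ x : Loc L M, ∑ y : Loc L M, ∑ t : Fin (2 ^ L),
            (∑ v : Fin M, if Q3 B x (t, v) then 1 else 0)) := by
      rw [← Finset.sum_add_distrib, ← Finset.sum_add_distrib, Finset.mul_sum]
      refine Finset.sum_congr rfl fun x _ => ?_
      rw [← Finset.sum_add_distrib, ← Finset.sum_add_distrib, Finset.mul_sum]
      refine Finset.sum_congr rfl fun y _ => ?_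
      rw [← Finset.sum_add_distrib, ← Finset.sum_add_distrib, Finset.mul_sum]
    rw [e4, e0, e1, e2, e3] at h1
    have hWpos : 0 < 2 ^ L * M := Nat.mul_pos (by positivity) hM
    have h3 : (2 ^ L * M) * ((2 ^ L * M) * (2 ^ L * M)) ≤ (2 ^ L * M) * (2 * diffs (mat L M) B) := by
      refine h1.trans ?_
      calc 2 * ((2 ^ L * M) * Nat.card {p : Loc L M × Loc L M // Q1 B p.1 p.2} +
            (2 ^ L * M) * Nat.card {p : Loc L M × Loc L M // Q2 B p.1 p.2} +
            (2 ^ L * M) * Nat.card {p : Loc L M × Loc L M // Q3 B p.1 p.2})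
          = (2 ^ L * M) * (2 * (Nat.card {p : Loc L M × Loc L M // Q1 B p.1 p.2} +
            (Nat.card {p : Loc L M × Loc L M // Q2 B p.1 p.2} +
              Nat.card {p : Loc L M × Loc L M // Q3 B p.1 p.2}))) := by ring
        _ ≤ _ := Nat.mul_le_mul_left _ (Nat.mul_le_mul_left _ h2)
    have h4 := Nat.le_of_mul_le_mul_left h3 hWpos
    rw [← pow_two] at h4
    omega
  obtain ⟨x, y, t, hxyt⟩ := key
  refine ⟨x, y, t, Finset.univ.filter fun u => ¬ Q2 B (t, u) y,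
    Finset.univ.filter fun v => ¬ Q3 B x (t, v), ?_, ?_, ?_, ?_, ?_⟩
  · have h1 := Finset.card_filter_add_card_filter_not (s := (Finset.univ : Finset (Fin M)))
      (fun u => Q2 B (t, u) y)
    rw [Finset.card_univ, Fintype.card_fin, Finset.card_filter] at h1
    omega
  · have h1 := Finset.card_filter_add_card_filter_not (s := (Finset.univ : Finset (Fin M)))
      (fun v => Q3 B x (t, v))
    rw [Finset.card_univ, Fintype.card_fin, Finset.card_filter] at h1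
    omega
  · intro g h hg hh
    by_contra hne
    have hQ : Q1 B x y := ⟨g, h, hg, hh, fun h' => hne h'.symm⟩
    rw [if_pos hQ] at hxyt
    omega
  · intro u hu s h hh
    by_contra hne
    exact (Finset.mem_filter.mp hu).2 ⟨s, h, hh, fun h' => hne h'.symm⟩
  · intro v hv g s hg
    by_contra hne
    exact (Finset.mem_filter.mp hv).2 ⟨g, s, hg, fun h' => hne h'.symm⟩

end

end P037
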