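import Vale.Agent.P037.Defs

/-!
P037, module Grid: a monochromatic 3 x 3 grid.
-/

namespace P037

open Finset

/-- three increasing elements of a set with at least three elements -/
theorem exists_three {M : ℕ} {s : Finset (Fin M)} (h : 3 ≤ s.card) :
    ∃ u : Fin 3 → Fin M, StrictMono u ∧ ∀ i, u i ∈ s := by
  obtain ⟨t, hts, ht⟩ := Finset.exists_subset_card_eq h
  exact ⟨fun i => t.orderEmbOfFin ht i, (t.orderEmbOfFin ht).strictMono,
    fun i => hts (Finset.orderEmbOfFin_mem t ht i)⟩

theorem exists_grid {C : Type*} [Fintype C] {M : ℕ} (U V : Finset (Fin M))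
    (hU : 2 * Fintype.card C + 1 ≤ U.card)
    (hV : 2 * Fintype.card C ^ (2 * Fintype.card C + 1) + 1 ≤ V.card) (f : Fin M → Fin M → C) :
    ∃ u v : Fin 3 → Fin M, StrictMono u ∧ StrictMono v ∧ (∀ i, u i ∈ U) ∧ (∀ j, v j ∈ V) ∧
      ∀ i j, f (u i) (v j) = f (u 0) (v 0) := by
  classical
  obtain ⟨U0, hU0, hc⟩ := Finset.exists_subset_card_eq hU
  -- columns with the same restriction to `U0`
  have hcard : (Finset.univ : Finset (U0 → C)).card * 2 < V.card := by
    rw [Finset.card_univ, Fintype.card_fun, Fintype.card_coe, hc]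
    omega
  obtain ⟨F, -, hF⟩ := Finset.exists_lt_card_fiber_of_mul_lt_card_of_maps_to
    (s := V) (t := (Finset.univ : Finset (U0 → C))) (f := fun v => fun u : U0 => f u.1 v)
    (fun _ _ => Finset.mem_univ _) hcard
  obtain ⟨v, hv, hvm⟩ := exists_three (s := V.filter fun v => (fun u : U0 => f u.1 v) = F) (by omega)
  have hcard2 : (Finset.univ : Finset C).card * 2 < (Finset.univ : Finset U0).card := by
    rw [Finset.card_univ, Finset.card_univ, Fintype.card_coe, hc]
    omega
  obtain ⟨c, -, hcc⟩ := Finset.exists_lt_card_fiber_of_mul_lt_card_of_maps_to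
    (s := (Finset.univ : Finset U0)) (t := (Finset.univ : Finset C)) (f := F)
    (fun _ _ => Finset.mem_univ _) hcard2
  have hcc' : 3 ≤ (U0.filter fun u => ∃ h : u ∈ U0, F ⟨u, h⟩ = c).card := by
    have h1 : ((Finset.univ : Finset U0).filter fun u => F u = c).card ≤
        (U0.filter fun u => ∃ h : u ∈ U0, F ⟨u, h⟩ = c).card := by
      refine Finset.card_le_card_of_injOn (fun u => u.1) (fun u hu => ?_)
        (fun a _ b _ h => Subtype.ext h)
      rw [Finset.mem_coe, Finset.mem_filter] at hu ⊢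
      exact ⟨u.2, u.2, hu.2⟩
    omega
  obtain ⟨u, hu, hum⟩ := exists_three hcc'
  refine ⟨u, v, hu, hv, fun i => ?_, fun j => ?_, ?_⟩
  · exact hU0 (Finset.mem_filter.mp (hum i)).1
  · exact (Finset.mem_filter.mp (hvm j)).1
  · have key : ∀ i j, f (u i) (v j) = c := by
      intro i j
      obtain ⟨h1, h2, h3⟩ := Finset.mem_filter.mp (hum i)
      have h4 := (Finset.mem_filter.mp (hvm j)).2
      have h5 := congrFun h4 ⟨u i, h2⟩
      rw [← h3, ← h5]
    intro i j
    rw [key, key]

end P037
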