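import Vale.Agent.P037.Ord
import Vale.Agent.P037.Grid
import Vale.Agent.P037.Frame

/-!
P037: every matrix close to `mat L M` contains a copy of `H`.
-/

namespace P037

theorem strictMono_part {α : Type*} [Preorder α] {R : Part → α} (h0 : R .ref < R (.sep 0))
    (hs : ∀ i j : Fin 11, i < j → R (.sep i) < R (.sep j)) (h1 : R (.sep 10) < R .p1)
    (h2 : R .p1 < R .p2) (h3 : R .p2 < R .p3) : StrictMono (fun i => R (part i)) := by
  rw [Fin.strictMono_iff_lt_succ]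
  intro i
  fin_cases i
  · exact h0
  · exact hs 0 1 (by decide)
  · exact hs 1 2 (by decide)
  · exact hs 2 3 (by decide)
  · exact hs 3 4 (by decide)
  · exact hs 4 5 (by decide)
  · exact hs 5 6 (by decide)
  · exact hs 6 7 (by decide)
  · exact hs 7 8 (by decide)
  · exact hs 8 9 (by decide)
  · exact hs 9 10 (by decide)
  · exact h1
  · exact h2
  · exact h3

theorem mat_row_sep {L M : ℕ} {a : Row L M} (ha : 2 ≤ a.g.rank) (j : Fin 11) (y : Loc L M) :
    mat L M a ⟨.sep j, y⟩ = false := by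
  rcases a with ⟨g, x⟩
  rcases g with κ | k | _ | s | _ | _
  · simp [RG.rank] at ha
  · simp [RG.rank] at ha
  all_goals rfl

theorem mat_sep_col {L M : ℕ} {b : Col L M} (hb : 2 ≤ b.g.rank) (i : Fin 11) (x : Loc L M) :
    mat L M ⟨.sep i, x⟩ b = false := by
  rcases b with ⟨g, y⟩
  rcases g with κ | k | _ | s | _
  · simp [CG.rank] at hb
  · simp [CG.rank] at hb
  all_goals rfl

/-- the frame columns see the row `a` unchanged -/
def OkR {L M : ℕ} (B : Row L M → Col L M → Bool) (y : Loc L M) (a : Row L M) : Prop :=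
  ∀ h, (∀ s, h ≠ CG.mid s) → B a ⟨h, y⟩ = mat L M a ⟨h, y⟩

/-- the frame rows see the column `b` unchanged -/
def OkC {L M : ℕ} (B : Row L M → Col L M → Bool) (x : Loc L M) (b : Col L M) : Prop :=
  ∀ g, (∀ s, g ≠ RG.mid s) → B ⟨g, x⟩ b = mat L M ⟨g, x⟩ b

theorem assemble {L M : ℕ} {B : Row L M → Col L M → Bool} {κ : Ref L} {x y : Loc L M}
    {a1 a2 a3 : Row L M} {b1 b2 b3 : Col L M}
    (hfr : ∀ g h, (∀ s, g ≠ RG.mid s) → (∀ s, h ≠ CG.mid s) →
      B ⟨g, x⟩ ⟨h, y⟩ = mat L M ⟨g, x⟩ ⟨h, y⟩)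
    (oa1 : OkR B y a1) (oa2 : OkR B y a2) (oa3 : OkR B y a3)
    (ob1 : OkC B x b1) (ob2 : OkC B x b2) (ob3 : OkC B x b3)
    (ra : 2 ≤ a1.g.rank) (a12 : a1 < a2) (a23 : a2 < a3)
    (rb : 2 ≤ b1.g.rank) (b12 : b1 < b2) (b23 : b2 < b3)
    (e1 : mat L M a1 ⟨.e κ, y⟩ = true) (e2 : mat L M a2 ⟨.e κ, y⟩ = true)
    (e3 : mat L M a3 ⟨.e κ, y⟩ = true)
    (f1 : mat L M ⟨.f κ, x⟩ b1 = true) (f2 : mat L M ⟨.f κ, x⟩ b2 = true)
    (f3 : mat L M ⟨.f κ, x⟩ b3 = true)
    (m11 : B a1 b1 = true) (m12 : B a1 b2 = true) (m13 : B a1 b3 = true)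
    (m21 : B a2 b1 = true) (m22 : B a2 b2 = false) (m23 : B a2 b3 = true)
    (m31 : B a3 b1 = true) (m32 : B a3 b2 = true) (m33 : B a3 b3 = true) :
    ∃ r c, IsCopy H B r c := by
  have ra2 := ra.trans (row_rank_le a12)
  have ra3 := ra2.trans (row_rank_le a23)
  have rb2 := rb.trans (col_rank_le b12)
  have rb3 := rb2.trans (col_rank_le b23)
  let R : Part → Row L M := fun P => match P with
    | .ref => ⟨.f κ, x⟩
    | .sep i => ⟨.sep i, x⟩
    | .p1 => a1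
    | .p2 => a2
    | .p3 => a3
  let C : Part → Col L M := fun P => match P with
    | .ref => ⟨.e κ, y⟩
    | .sep i => ⟨.sep i, y⟩
    | .p1 => b1
    | .p2 => b2
    | .p3 => b3
  have nf : ∀ s, (RG.f κ : RG L) ≠ .mid s := fun s h => by cases h
  have ne : ∀ s, (CG.e κ : CG L) ≠ .mid s := fun s h => by cases h
  have ns : ∀ i s, (RG.sep i : RG L) ≠ .mid s := fun i s h => by cases h
  have ns' : ∀ i s, (CG.sep i : CG L) ≠ .mid s := fun i s h => by cases h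
  have hB : ∀ P Q : Part, B (R P) (C Q) = Hp P Q := by
    intro P Q
    rcases P with _ | i | _ | _ | _ <;> rcases Q with _ | j | _ | _ | _
    · exact (hfr _ _ nf ne).trans (by simp [mat, val, Hp])
    · exact (hfr _ _ nf (ns' j)).trans rfl
    · exact (ob1 _ nf).trans f1
    · exact (ob2 _ nf).trans f2
    · exact (ob3 _ nf).trans f3
    · exact (hfr _ _ (ns i) ne).trans rfl
    · exact (hfr _ _ (ns i) (ns' j)).trans rfl
    · exact (ob1 _ (ns i)).trans (mat_sep_col rb i x)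
    · exact (ob2 _ (ns i)).trans (mat_sep_col rb2 i x)
    · exact (ob3 _ (ns i)).trans (mat_sep_col rb3 i x)
    · exact (oa1 _ ne).trans e1
    · exact (oa1 _ (ns' j)).trans (mat_row_sep ra j y)
    · exact m11
    · exact m12
    · exact m13
    · exact (oa2 _ ne).trans e2
    · exact (oa2 _ (ns' j)).trans (mat_row_sep ra2 j y)
    · exact m21
    · exact m22
    · exact m23
    · exact (oa3 _ ne).trans e3
    · exact (oa3 _ (ns' j)).trans (mat_row_sep ra3 j y)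
    · exact m31
    · exact m32
    · exact m33
  refine ⟨fun i => R (part i), fun i => C (part i), ?_, ?_, fun i j => hB _ _⟩
  · refine strictMono_part ?_ ?_ ?_ a12 a23
    · exact row_lt_of_rank (by simp [R, RG.rank])
    · intro i j hij
      exact row_sep_lt hij
    · refine row_lt_of_rank ?_
      change 1 < a1.g.rank
      omega
  · refine strictMono_part ?_ ?_ ?_ b12 b23
    · exact col_lt_of_rank (by simp [C, CG.rank])
    · intro i j hij
      exact col_sep_lt hij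
    · refine col_lt_of_rank ?_
      change 1 < b1.g.rank
      omega

/-- number of rounds needed -/
def big (L : ℕ) : ℕ := 4 * (2 ^ (L * (L + 1))) ^ (2 * 2 ^ (L * (L + 1)) + 1) + 2

theorem far {L M : ℕ} (hL : 1 ≤ L) (hM : big L ≤ M) (B : Row L M → Col L M → Bool)
    (hB : 2 * diffs (mat L M) B < (2 ^ L * M) ^ 2) : ∃ r c, IsCopy H B r c := by
  obtain ⟨x, y, t, U, V, hU, hV, hfr, hrow, hcol⟩ := exists_frame B hB
  -- the grid
  let f : Fin M → Fin M → (Fin L → Fin (L + 1) → Bool) := fun u v s s' =>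
    B ⟨.mid s, (t, u)⟩ ⟨.mid s', (t, v)⟩
  have hcard : Fintype.card (Fin L → Fin (L + 1) → Bool) = 2 ^ (L * (L + 1)) := by
    rw [Fintype.card_fun, Fintype.card_fun, Fintype.card_bool, Fintype.card_fin,
      Fintype.card_fin, ← pow_mul, mul_comm]
  have hbig : 2 * 2 ^ (L * (L + 1)) + 1 ≤
      2 * (2 ^ (L * (L + 1))) ^ (2 * 2 ^ (L * (L + 1)) + 1) + 1 := by
    have h1 : 2 ^ (L * (L + 1)) ≤ (2 ^ (L * (L + 1))) ^ (2 * 2 ^ (L * (L + 1)) + 1) :=
      Nat.le_self_pow (by omega) _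
    omega
  have hM2 : 4 * (2 ^ (L * (L + 1))) ^ (2 * 2 ^ (L * (L + 1)) + 1) + 2 ≤ M := hM
  obtain ⟨u, v, hu, hv, huU, hvV, hmono⟩ := exists_grid U V (by rw [hcard]; omega)
    (by rw [hcard]; omega) f
  set X : Fin L → Fin (L + 1) → Bool := f (u 0) (v 0) with hX
  have hXe : ∀ i j s s', B ⟨.mid s, (t, u i)⟩ ⟨.mid s', (t, v j)⟩ = X s s' := by
    intro i j s s'
    have := hmono i j
    exact congrFun (congrFun this s) s'
  have nt : ∀ s, (RG.top : RG L) ≠ .mid s := fun s h => by cases h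
  have nb : ∀ s, (RG.bot : RG L) ≠ .mid s := fun s h => by cases h
  have nl : ∀ s, (RG.low : RG L) ≠ .mid s := fun s h => by cases h
  have nm : ∀ s, (CG.cm : CG L) ≠ .mid s := fun s h => by cases h
  have np : ∀ s, (CG.cp : CG L) ≠ .mid s := fun s h => by cases h
  have oR : ∀ g, (∀ s, g ≠ RG.mid s) → OkR B y ⟨g, x⟩ := fun g hg h hh => hfr g h hg hh
  have oC : ∀ h, (∀ s, h ≠ CG.mid s) → OkC B x ⟨h, y⟩ := fun h hh g hg => hfr g h hg hh
  have oRm : ∀ i s, OkR B y ⟨.mid s, (t, u i)⟩ := fun i s h hh => hrow _ (huU i) s h hh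
  have oCm : ∀ j s, OkC B x ⟨.mid s, (t, v j)⟩ := fun j s g hg => hcol _ (hvV j) g s hg
  by_contra hno
  -- start
  have start : X ⟨0, hL⟩ 0 = true := by
    by_contra h
    rw [Bool.not_eq_true] at h
    refine hno (assemble (κ := .C 0 (bit L 0 t)) (x := x) (y := y) (a1 := ⟨.top, x⟩)
      (a2 := ⟨.mid ⟨0, hL⟩, (t, u 1)⟩) (a3 := ⟨.bot, x⟩) (b1 := ⟨.cm, y⟩)
      (b2 := ⟨.mid 0, (t, v 1)⟩) (b3 := ⟨.cp, y⟩) hfr (oR _ nt) (oRm _ _) (oR _ nb)
      (oC _ nm) (oCm _ _) (oC _ np) le_rfl (row_lt_of_rank (by simp [RG.rank]))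
      (row_lt_of_rank (by simp [RG.rank])) le_rfl (col_lt_of_rank (by simp [CG.rank]))
      (col_lt_of_rank (by simp [CG.rank])) ?_ ?_ ?_ ?_ ?_ ?_ ?_ ?_ ?_ ?_ ?_ ?_ ?_ ?_ ?_)
    · simp [mat, val]
    · simp [mat, val]
    · simp [mat, val]
    · rfl
    · simp [mat, val]
    · rfl
    · exact (hfr _ _ nt nm).trans rfl
    · exact (oCm 1 0 _ nt).trans rfl
    · exact (hfr _ _ nt np).trans rfl
    · exact (oRm 1 _ _ nm).trans rfl
    · rw [hXe, h]
    · exact (oRm 1 _ _ np).trans rfl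
    · exact (hfr _ _ nb nm).trans rfl
    · exact (oCm 1 0 _ nb).trans rfl
    · exact (hfr _ _ nb np).trans rfl
  -- column step
  have cstep : ∀ s : Fin L, X s s.castSucc = true → X s s.succ = true := by
    intro s hs
    by_contra h
    rw [Bool.not_eq_true] at h
    refine hno (assemble (κ := .R s (bit L (s.val + 1) t)) (x := x) (y := y) (a1 := ⟨.top, x⟩)
      (a2 := ⟨.mid s, (t, u 1)⟩) (a3 := ⟨.bot, x⟩) (b1 := ⟨.mid s.castSucc, (t, v 0)⟩)
      (b2 := ⟨.mid s.succ, (t, v 1)⟩) (b3 := ⟨.mid s.castSucc, (t, v 2)⟩) hfr (oR _ nt)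
      (oRm _ _) (oR _ nb)
      (oCm _ _) (oCm _ _) (oCm _ _) le_rfl (row_lt_of_rank (by simp [RG.rank]))
      (row_lt_of_rank (by simp [RG.rank])) (by simp [CG.rank]) (col_mid_lt (hv (by decide)))
      (col_mid_lt (hv (by decide))) ?_ ?_ ?_ ?_ ?_ ?_ ?_ ?_ ?_ ?_ ?_ ?_ ?_ ?_ ?_)
    · rfl
    · simp [mat, val]
    · rfl
    · simp [mat, val]
    · simp [mat, val]
    · simp [mat, val]
    · exact (oCm 0 _ _ nt).trans rfl
    · exact (oCm 1 _ _ nt).trans rfl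
    · exact (oCm 2 _ _ nt).trans rfl
    · rw [hXe, hs]
    · rw [hXe, h]
    · rw [hXe, hs]
    · exact (oCm 0 _ _ nb).trans rfl
    · exact (oCm 1 _ _ nb).trans rfl
    · exact (oCm 2 _ _ nb).trans rfl
  -- row step
  have rstep : ∀ (s : Fin L) (h1 : s.val + 1 < L), X s s.succ = true →
      X ⟨s.val + 1, h1⟩ s.succ = true := by
    intro s h1 hs
    by_contra h
    rw [Bool.not_eq_true] at h
    refine hno (assemble (κ := .C s.succ (bit L (s.val + 1) t)) (x := x) (y := y)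
      (a1 := ⟨.mid s, (t, u 0)⟩)
      (a2 := ⟨.mid ⟨s.val + 1, h1⟩, (t, u 1)⟩) (a3 := ⟨.mid s, (t, u 2)⟩) (b1 := ⟨.cm, y⟩)
      (b2 := ⟨.mid s.succ, (t, v 1)⟩) (b3 := ⟨.cp, y⟩) hfr (oRm _ _)
      (oRm _ _) (oRm _ _)
      (oC _ nm) (oCm _ _) (oC _ np) (by simp [RG.rank]) (row_mid_lt (hu (by decide)))
      (row_mid_lt (hu (by decide))) le_rfl (col_lt_of_rank (by simp [CG.rank]))
      (col_lt_of_rank (by simp [CG.rank])) ?_ ?_ ?_ ?_ ?_ ?_ ?_ ?_ ?_ ?_ ?_ ?_ ?_ ?_ ?_)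
    · simp [mat, val]
    · simp [mat, val]
    · simp [mat, val]
    · rfl
    · simp [mat, val]
    · rfl
    · exact (oRm 0 _ _ nm).trans rfl
    · rw [hXe, hs]
    · exact (oRm 0 _ _ np).trans rfl
    · exact (oRm 1 _ _ nm).trans rfl
    · rw [hXe, h]
    · exact (oRm 1 _ _ np).trans rfl
    · exact (oRm 2 _ _ nm).trans rfl
    · rw [hXe, hs]
    · exact (oRm 2 _ _ np).trans rfl
  -- induction
  have key : ∀ n (hn : n < L), X ⟨n, hn⟩ (⟨n, hn⟩ : Fin L).castSucc = true := by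
    intro n
    induction n with
    | zero => intro hn; exact start
    | succ n ih =>
      intro hn
      have hn' : n < L := by omega
      exact rstep ⟨n, hn'⟩ hn (cstep ⟨n, hn'⟩ (ih hn'))
  have hlast : X ⟨L - 1, by omega⟩ (⟨L - 1, by omega⟩ : Fin L).succ = true :=
    cstep _ (key (L - 1) (by omega))
  have hsucc : (⟨L - 1, by omega⟩ : Fin L).succ = Fin.last L := by
    apply Fin.ext
    simp only [Fin.val_succ, Fin.val_last]
    omega
  rw [hsucc] at hlast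
  have hL1 : L = L - 1 + 1 := by omega
  refine hno (assemble (κ := .C (Fin.last L) (bit L L t)) (x := x) (y := y)
      (a1 := ⟨.mid ⟨L - 1, by omega⟩, (t, u 0)⟩)
      (a2 := ⟨.low, x⟩) (a3 := ⟨.bot, x⟩) (b1 := ⟨.cm, y⟩)
      (b2 := ⟨.mid (Fin.last L), (t, v 1)⟩) (b3 := ⟨.cp, y⟩) hfr (oRm _ _)
      (oR _ nl) (oR _ nb)
      (oC _ nm) (oCm _ _) (oC _ np) (by simp [RG.rank]) (row_lt_of_rank (by simp [RG.rank]))
      (row_lt_of_rank (by simp [RG.rank])) le_rfl (col_lt_of_rank (by simp [CG.rank]))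
      (col_lt_of_rank (by simp [CG.rank])) ?_ ?_ ?_ ?_ ?_ ?_ ?_ ?_ ?_ ?_ ?_ ?_ ?_ ?_ ?_)
  · simp only [mat, val, Fin.val_last, decide_eq_true_eq]
    left
    exact ⟨hL1, by rw [← hL1]⟩
  · simp [mat, val]
  · simp [mat, val]
  · rfl
  · simp [mat, val]
  · rfl
  · exact (oRm 0 _ _ nm).trans rfl
  · rw [hXe, hlast]
  · exact (oRm 0 _ _ np).trans rfl
  · exact (hfr _ _ nl nm).trans rfl
  · exact (oCm 1 _ _ nl).trans rfl
  · exact (hfr _ _ nl np).trans rfl
  · exact (hfr _ _ nb nm).trans rfl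
  · exact (oCm 1 _ _ nb).trans rfl
  · exact (hfr _ _ nb np).trans rfl

end P037
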