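import Vale.Agent.P037.NoCopy
import Vale.Agent.P037.Far
import Vale.Agent.P037.Count

/-!
P037: final assembly.
-/

namespace P037

open Filter Topology

theorem big_pos (L : ℕ) : 1 ≤ big L := by
  unfold big
  omega

theorem hfree_false {n : ℕ} : HFree H (fun _ _ : Fin n => false) := by
  intro r c h
  have h1 : false = H 0 0 := h.2.2 0 0
  have h2 : H 0 0 = true := by decide
  rw [h2] at h1
  cases h1

/-- transport of the number of differences along bijections -/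
theorem diffs_congr {α β α' β' : Type*} (e : α ≃ α') (f : β ≃ β') (A B : α' → β' → Bool) :
    diffs (fun i j => A (e i) (f j)) (fun i j => B (e i) (f j)) = diffs A B := by
  unfold diffs
  refine Nat.card_congr ((e.prodCongr f).subtypeEquiv ?_)
  rintro ⟨i, j⟩
  exact Iff.rfl

theorem diffs_lower {L M : ℕ} (hL : 1 ≤ L) (hM : big L ≤ M) {n : ℕ} (eR : Fin n ≃o Row L M)
    (eC : Fin n ≃o Col L M) (B : Fin n → Fin n → Bool) (hB : HFree H B) :
    (2 ^ L * M) ^ 2 ≤ 2 * diffs (fun i j => mat L M (eR i) (eC j)) B := by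
  by_contra hlt
  rw [not_le] at hlt
  have h1 : diffs (mat L M) (fun a b => B (eR.symm a) (eC.symm b)) =
      diffs (fun i j => mat L M (eR i) (eC j)) B := by
    have := diffs_congr eR.toEquiv eC.toEquiv (mat L M) (fun a b => B (eR.symm a) (eC.symm b))
    rw [← this]
    congr 1
    funext i j
    simp
  rw [← h1] at hlt
  obtain ⟨r, c, hr, hc, h⟩ := far hL hM _ hlt
  exact hB (fun i => eR.symm (r i)) (fun j => eC.symm (c j))
    ⟨eR.symm.strictMono.comp hr, eC.symm.strictMono.comp hc, h⟩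

theorem hard (L : ℕ) (hL : 1 ≤ L) (n₀ : ℕ) : ∃ (n : ℕ) (A : Fin n → Fin n → Bool),
    1 ≤ n ∧ n₀ ≤ n ∧ 1 / (2 * (5 * (L : ℝ) + 16) ^ 2) ≤ hdist H A ∧
    (copies H A : ℝ) ≤ 2⁻¹ ^ L * (n : ℝ) ^ 30 := by
  obtain ⟨M, hM, hM0, hM1⟩ : ∃ M, big L ≤ M ∧ n₀ ≤ M ∧ 1 ≤ M :=
    ⟨max (big L) n₀, le_max_left _ _, le_max_right _ _, (big_pos L).trans (le_max_left _ _)⟩
  have hW : 1 ≤ 2 ^ L * M := Nat.mul_pos (by positivity) hM1
  have hG : 1 ≤ G L := by
    unfold G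
    omega
  have hMN : M ≤ N L M := by
    unfold N
    calc M = 1 * (1 * M) := by ring
      _ ≤ G L * (2 ^ L * M) := Nat.mul_le_mul hG (Nat.mul_le_mul_right _ Nat.one_le_two_pow)
  let eR : Fin (N L M) ≃o Row L M := Fintype.orderIsoFinOfCardEq (Row L M) (card_Row L M)
  let eC : Fin (N L M) ≃o Col L M := Fintype.orderIsoFinOfCardEq (Col L M) (card_Col L M)
  refine ⟨N L M, fun i j => mat L M (eR i) (eC j), hM1.trans hMN, hM0.trans hMN, ?_, ?_⟩
  · have hne : {m : ℕ | ∃ B : Fin (N L M) → Fin (N L M) → Bool, HFree H B ∧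
        diffs (fun i j => mat L M (eR i) (eC j)) B = m}.Nonempty :=
      ⟨_, _, hfree_false, rfl⟩
    obtain ⟨B, hB, hBm⟩ := Nat.sInf_mem hne
    have h1 := diffs_lower hL hM eR eC B hB
    have hG' : (G L : ℝ) = 5 * (L : ℝ) + 16 := by
      unfold G
      push_cast
      ring
    have hGpos : (0 : ℝ) < G L := by exact_mod_cast hG
    have hWpos : (0 : ℝ) < (2 ^ L * M : ℕ) := by exact_mod_cast hW
    have h2 : (((2 ^ L * M : ℕ) : ℝ)) ^ 2 ≤
        2 * (diffs (fun i j => mat L M (eR i) (eC j)) B : ℝ) := by exact_mod_cast h1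
    have h3 : ((N L M : ℕ) : ℝ) = (G L : ℝ) * ((2 ^ L * M : ℕ) : ℝ) := by
      unfold N
      push_cast
      ring
    unfold hdist
    rw [← hBm, ← hG', h3, div_le_div_iff₀ (by positivity) (by positivity)]
    have h4 : (0 : ℝ) ≤ (G L : ℝ) ^ 2 := by positivity
    calc 1 * ((G L : ℝ) * ((2 ^ L * M : ℕ) : ℝ)) ^ 2
        = (G L : ℝ) ^ 2 * (((2 ^ L * M : ℕ) : ℝ)) ^ 2 := by ring
      _ ≤ (G L : ℝ) ^ 2 * (2 * (diffs (fun i j => mat L M (eR i) (eC j)) B : ℝ)) :=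
          mul_le_mul_of_nonneg_left h2 h4
      _ = (diffs (fun i j => mat L M (eR i) (eC j)) B : ℝ) * (2 * (G L : ℝ) ^ 2) := by ring
  · have h1 := copies_le_of hL (copy_tiny hL) eR eC
    have h2 : (copies H (fun i j => mat L M (eR i) (eC j)) : ℝ) * 2 ^ L ≤ (N L M : ℝ) ^ 30 := by
      exact_mod_cast h1
    rw [inv_pow, inv_mul_eq_div, le_div_iff₀ (by positivity)]
    exact h2

/-- no polynomial bound -/
theorem not_poly : ¬ ∃ c C : ℝ, 0 < c ∧ 0 < C ∧ ∀ n : ℕ, 1 ≤ n → ∀ ε : ℝ, 0 < ε → ε < 1 →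
    ∀ A : Fin n → Fin n → Bool, ε ≤ hdist H A →
      c * ε ^ C * (n : ℝ) ^ (2 * 15) ≤ copies H A := by
  rintro ⟨c, C, hc, hC, h⟩
  obtain ⟨k, hk⟩ := exists_nat_ge C
  -- the bound for every L
  have key : ∀ L : ℕ, 1 ≤ L → c ≤ (1000 : ℝ) ^ k * ((L : ℝ) ^ (2 * k) * 2⁻¹ ^ L) := by
    intro L hL
    have hL' : (1 : ℝ) ≤ L := by exact_mod_cast hL
    obtain ⟨n, A, hn, _, hd, hcop⟩ := hard L hL 0
    have hn' : (0 : ℝ) < (n : ℝ) := by exact_mod_cast hn
    set ε : ℝ := 1 / (2 * (5 * (L : ℝ) + 16) ^ 2) with hε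
    have hε0 : 0 < ε := by positivity
    have hε1 : ε < 1 := by
      rw [hε, div_lt_one (by positivity)]
      nlinarith
    have h1 := h n hn ε hε0 hε1 A hd
    have h2 : c * ε ^ C ≤ 2⁻¹ ^ L := by
      have h3 : c * ε ^ C * (n : ℝ) ^ 30 ≤ 2⁻¹ ^ L * (n : ℝ) ^ 30 := h1.trans hcop
      exact le_of_mul_le_mul_right h3 (by positivity)
    have h3 : ε ^ k ≤ ε ^ C := by
      rw [← Real.rpow_natCast]
      exact Real.rpow_le_rpow_of_exponent_ge hε0 hε1.le hk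
    have h4 : 1 / (1000 * (L : ℝ) ^ 2) ≤ ε := by
      rw [hε]
      refine one_div_le_one_div_of_le (by positivity) ?_
      nlinarith
    have h5 : (1 / (1000 * (L : ℝ) ^ 2)) ^ k ≤ ε ^ k := pow_le_pow_left₀ (by positivity) h4 k
    have h6 : c * (1 / (1000 * (L : ℝ) ^ 2)) ^ k ≤ 2⁻¹ ^ L :=
      (mul_le_mul_of_nonneg_left (h5.trans h3) hc.le).trans h2
    rw [div_pow, one_pow, mul_one_div, div_le_iff₀ (by positivity)] at h6
    calc c ≤ 2⁻¹ ^ L * (1000 * (L : ℝ) ^ 2) ^ k := h6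
      _ = (1000 : ℝ) ^ k * ((L : ℝ) ^ (2 * k) * 2⁻¹ ^ L) := by
          rw [mul_pow, ← pow_mul]
          ring
  have hlim : Tendsto (fun L : ℕ => (1000 : ℝ) ^ k * ((L : ℝ) ^ (2 * k) * 2⁻¹ ^ L)) atTop
      (𝓝 ((1000 : ℝ) ^ k * 0)) :=
    (tendsto_pow_const_mul_const_pow_of_lt_one (2 * k) (r := (2⁻¹ : ℝ)) (by norm_num)
      (by norm_num)).const_mul _
  rw [mul_zero] at hlim
  have hfin : c ≤ 0 := by
    refine ge_of_tendsto hlim ?_
    filter_upwards [eventually_ge_atTop 1] with L hL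
    exact key L hL
  linarith

end P037
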