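import Vale.Agent.P037.Ord

/-!
P037: the copies of `H` in `mat L M`.
-/

namespace P037

theorem part_idx (P : Part) : part (idx P) = P := by
  cases P with
  | ref => rfl
  | sep i =>
    have h1 : ¬ (idx (.sep i)).val = 0 := by simp [idx]
    have h2 : (idx (.sep i)).val ≤ 11 := by
      have := i.isLt
      simp only [idx]
      omega
    unfold part
    rw [if_neg h1, dif_pos h2]
    simp [idx]
  | p1 => rfl
  | p2 => rfl
  | p3 => rfl

theorem H_idx (P Q : Part) : H (idx P) (idx Q) = Hp P Q := by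
  rw [H, part_idx, part_idx]

/-! ### cells -/

theorem cell_half {L s : ℕ} (hs : s < L) (t : ℕ) : cell L s t = cell L (s + 1) t / 2 := by
  unfold cell
  rw [Nat.div_div_eq_div_mul, ← pow_succ]
  congr 2
  omega

theorem cell_mono (L s : ℕ) {t t' : ℕ} (h : t ≤ t') : cell L s t ≤ cell L s t' :=
  Nat.div_le_div_right h

theorem cell_zero {L t : ℕ} (h : t < 2 ^ L) : cell L 0 t = 0 := by
  unfold cell
  rw [Nat.sub_zero]
  exact Nat.div_eq_of_lt h

theorem cell_last (L t : ℕ) : cell L L t = t := by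
  unfold cell
  simp

theorem bit_eq_iff {L s t : ℕ} {b : Bool} : bit L s t = b ↔ (cell L s t % 2 = 1 ↔ b = true) := by
  unfold bit
  cases b <;> simp

theorem cell_succ_eq_iff {L s x y : ℕ} (hs : s < L) (hb : bit L (s + 1) x = bit L (s + 1) y) :
    cell L (s + 1) x = cell L (s + 1) y ↔ cell L s x = cell L s y := by
  rw [cell_half hs x, cell_half hs y]
  unfold bit at hb
  simp only [decide_eq_decide] at hb
  constructor
  · intro h
    rw [h]
  · intro h
    omega

/-! ### classes of equal rows and columns -/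

/-- class of a row -/
def rc {L M : ℕ} (a : Row L M) : ℕ × ℕ × Bool × ℕ :=
  match a.g with
  | .f (.C s b) => (0, s.val, b, 0)
  | .f (.R s b) => (1, s.val, b, 0)
  | .sep i => (2, i.val, false, 0)
  | .top => (3, 0, false, 0)
  | .mid s => (4, s.val, false, cell L (s.val + 1) a.x.1)
  | .low => (5, 0, false, 0)
  | .bot => (6, 0, false, 0)

/-- class of a column -/
def cc {L M : ℕ} (a : Col L M) : ℕ × ℕ × Bool × ℕ :=
  match a.g with
  | .e (.C s b) => (0, s.val, b, 0)
  | .e (.R s b) => (1, s.val, b, 0)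
  | .sep i => (2, i.val, false, 0)
  | .cm => (3, 0, false, 0)
  | .cp => (3, 0, false, 0)
  | .mid s => (4, s.val, false, cell L s.val a.x.1)

theorem mat_mid_congr {L M : ℕ} {s : Fin L} {x y : Loc L M}
    (h : cell L (s.val + 1) x.1 = cell L (s.val + 1) y.1) (b : Col L M) :
    mat L M ⟨.mid s, x⟩ b = mat L M ⟨.mid s, y⟩ b := by
  have hb : bit L (s.val + 1) x.1 = bit L (s.val + 1) y.1 := by
    unfold bit
    rw [h]
  have hc : cell L s.val x.1 = cell L s.val y.1 := by
    rw [cell_half s.isLt, cell_half s.isLt, h]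
  rcases b with ⟨g, z⟩
  rcases g with (⟨s', b'⟩ | ⟨s', b'⟩) | i | _ | s' | _ <;> simp only [mat, val, hb, h, hc]

theorem mat_mid_congr' {L M : ℕ} {s : Fin (L + 1)} {x y : Loc L M}
    (h : cell L s.val x.1 = cell L s.val y.1) (a : Row L M) :
    mat L M a ⟨.mid s, x⟩ = mat L M a ⟨.mid s, y⟩ := by
  have hb : bit L s.val x.1 = bit L s.val y.1 := by
    unfold bit
    rw [h]
  rcases a with ⟨g, z⟩
  rcases g with (⟨s', b'⟩ | ⟨s', b'⟩) | i | _ | s' | _ | _
  · simp only [mat, val]
    by_cases hs : s.val = s'.val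
    · rw [← hs, hb]
    · simp only [hs, false_and]
  · simp only [mat, val]
    by_cases hs : s.val = s'.val + 1
    · rw [← hs, hb]
    · simp only [hs, false_and]
  · rfl
  · rfl
  · simp only [mat, val]
    have e1 : (s.val = s'.val + 1 ∧ cell L (s'.val + 1) z.1 = cell L (s'.val + 1) x.1) ↔
        (s.val = s'.val + 1 ∧ cell L (s'.val + 1) z.1 = cell L (s'.val + 1) y.1) := by
      by_cases hs : s.val = s'.val + 1
      · rw [← hs, h]
      · simp only [hs, false_and]
    have e2 : (s.val = s'.val ∧ cell L s'.val z.1 = cell L s'.val x.1) ↔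
        (s.val = s'.val ∧ cell L s'.val z.1 = cell L s'.val y.1) := by
      by_cases hs : s.val = s'.val
      · rw [← hs, h]
      · simp only [hs, false_and]
    rw [decide_eq_decide, e1, e2]
  · rfl
  · rfl

theorem mat_nonmid {L M : ℕ} {g : RG L} (hg : ∀ s, g ≠ .mid s) (x y : Loc L M) (b : Col L M) :
    mat L M ⟨g, x⟩ b = mat L M ⟨g, y⟩ b := by
  rcases b with ⟨g', z⟩
  rcases g with (⟨s, c⟩ | ⟨s, c⟩) | i | _ | s | _ | _ <;>
    rcases g' with (⟨s', c'⟩ | ⟨s', c'⟩) | i' | _ | s' | _ <;>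
    first
    | rfl
    | exact absurd rfl (hg s)

theorem mat_rc {L M : ℕ} {a a' : Row L M} (h : rc a = rc a') (b : Col L M) :
    mat L M a b = mat L M a' b := by
  rcases a with ⟨g, x⟩
  rcases a' with ⟨g', y⟩
  rcases g with (⟨s, c⟩ | ⟨s, c⟩) | i | _ | s | _ | _ <;>
    rcases g' with (⟨s', c'⟩ | ⟨s', c'⟩) | i' | _ | s' | _ | _ <;>
    simp only [rc, Prod.mk.injEq, Nat.reduceEqDiff, false_and, OfNat.ofNat_ne_zero,
      OfNat.zero_ne_ofNat, zero_ne_one, one_ne_zero, OfNat.ofNat_ne_one, OfNat.one_ne_ofNat,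
      true_and, and_true, Fin.val_inj] at h
  · obtain ⟨rfl, rfl⟩ := h
    exact mat_nonmid (fun s h => by cases h) x y b
  · obtain ⟨rfl, rfl⟩ := h
    exact mat_nonmid (fun s h => by cases h) x y b
  · subst h
    exact mat_nonmid (fun s h => by cases h) x y b
  · exact mat_nonmid (fun s h => by cases h) x y b
  · obtain ⟨rfl, h⟩ := h
    exact mat_mid_congr h b
  · exact mat_nonmid (fun s h => by cases h) x y b
  · exact mat_nonmid (fun s h => by cases h) x y b

theorem mat_cc {L M : ℕ} {b b' : Col L M} (h : cc b = cc b') (a : Row L M) :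
    mat L M a b = mat L M a b' := by
  have hcp : ∀ x y : Loc L M, mat L M a ⟨.cm, x⟩ = mat L M a ⟨.cp, y⟩ := by
    intro x y
    rcases a with ⟨g, z⟩
    rcases g with (⟨s', b'⟩ | ⟨s', b'⟩) | i | _ | s' | _ | _ <;> rfl
  have hcm : ∀ x y : Loc L M, mat L M a ⟨.cm, x⟩ = mat L M a ⟨.cm, y⟩ := by
    intro x y
    rcases a with ⟨g, z⟩
    rcases g with (⟨s', b'⟩ | ⟨s', b'⟩) | i | _ | s' | _ | _ <;> rfl
  rcases b with ⟨g, x⟩
  rcases b' with ⟨g', y⟩
  rcases g with (⟨s, c⟩ | ⟨s, c⟩) | i | _ | s | _ <;>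
    rcases g' with (⟨s', c'⟩ | ⟨s', c'⟩) | i' | _ | s' | _ <;>
    simp only [cc, Prod.mk.injEq, Nat.reduceEqDiff, false_and, OfNat.ofNat_ne_zero,
      OfNat.zero_ne_ofNat, zero_ne_one, one_ne_zero, OfNat.ofNat_ne_one, OfNat.one_ne_ofNat,
      true_and, and_true, Fin.val_inj] at h
  · obtain ⟨rfl, rfl⟩ := h
    rcases a with ⟨g, z⟩
    rcases g with (⟨s', b'⟩ | ⟨s', b'⟩) | i | _ | s' | _ | _ <;> rfl
  · obtain ⟨rfl, rfl⟩ := h
    rcases a with ⟨g, z⟩
    rcases g with (⟨s', b'⟩ | ⟨s', b'⟩) | i | _ | s' | _ | _ <;> rfl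
  · subst h
    rcases a with ⟨g, z⟩
    rcases g with (⟨s', b'⟩ | ⟨s', b'⟩) | i | _ | s' | _ | _ <;> rfl
  · exact hcm x y
  · exact hcp x y
  · obtain ⟨rfl, h⟩ := h
    exact mat_mid_congr' h a
  · exact (hcp y x).symm
  · exact (hcp x x).symm.trans ((hcm x y).trans (hcp y y))

/-! ### the separators cannot be placed outside the separator blocks -/

theorem pigeon {α : Type*} [DecidableEq α] {f : Fin 11 → α} (hf : Function.Injective f)
    {i : Fin 11} {l : List α} (hl : l.length ≤ 9) (h : ∀ j, j ≠ i → f j ∈ l) : False := by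
  have h1 : (Finset.univ.erase i).card ≤ l.toFinset.card := by
    refine Finset.card_le_card_of_injOn f (fun j hj => ?_) hf.injOn
    have := h j (Finset.ne_of_mem_erase hj)
    simpa using this
  have h2 := l.toFinset_card_le
  have h3 : (Finset.univ.erase i : Finset (Fin 11)).card = 10 := by
    rw [Finset.card_erase_of_mem (Finset.mem_univ _), Finset.card_univ, Fintype.card_fin]
  omega

theorem cc_of_mid {L M : ℕ} {s : Fin L} {x : Loc L M} {b : Col L M}
    (h : mat L M ⟨.mid s, x⟩ b = true) :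
    cc b ∈ [(0, s.val + 1, bit L (s.val + 1) x.1, 0), (0, s.val, true, 0), (0, s.val, false, 0),
      (1, s.val, bit L (s.val + 1) x.1, 0), (3, 0, false, 0),
      (4, s.val + 1, false, cell L (s.val + 1) x.1), (4, s.val, false, cell L s.val x.1)] := by
  rcases b with ⟨g, y⟩
  rcases g with (⟨s', c⟩ | ⟨s', c⟩) | i | _ | s' | _
  · simp only [mat, val, decide_eq_true_eq] at h
    rcases h with ⟨h1, h2⟩ | h1
    · simp [cc, h1, h2]
    · cases c <;> simp [cc, h1]
  · simp only [mat, val, decide_eq_true_eq] at h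
    simp [cc, h.1, h.2]
  · simp [mat, val] at h
  · simp [cc]
  · simp only [mat, val, decide_eq_true_eq] at h
    rcases h with ⟨h1, h2⟩ | ⟨h1, h2⟩
    · simp [cc, h1, h2]
    · simp [cc, h1, h2]
  · simp [cc]

theorem cc_of_low {L M : ℕ} {x : Loc L M} {b : Col L M}
    (h : mat L M ⟨.low, x⟩ b = true) :
    cc b ∈ [(0, L, true, 0), (0, L, false, 0), (3, 0, false, 0)] := by
  rcases b with ⟨g, y⟩
  rcases g with (⟨s', c⟩ | ⟨s', c⟩) | i | _ | s' | _
  · simp only [mat, val, decide_eq_true_eq] at h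
    cases c <;> simp [cc, h]
  · simp [mat, val] at h
  · simp [mat, val] at h
  · simp [cc]
  · simp [mat, val] at h
  · simp [cc]

theorem rc_of_mid {L M : ℕ} {s : Fin (L + 1)} {y : Loc L M} {a : Row L M}
    (h : mat L M a ⟨.mid s, y⟩ = true) :
    rc a ∈ [(0, s.val, bit L s.val y.1, 0), (1, s.val - 1, bit L s.val y.1, 0),
      (1, s.val, true, 0), (1, s.val, false, 0), (3, 0, false, 0), (6, 0, false, 0),
      (4, s.val - 1, false, cell L s.val y.1), (4, s.val, false, 2 * cell L s.val y.1),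
      (4, s.val, false, 2 * cell L s.val y.1 + 1)] := by
  rcases a with ⟨g, x⟩
  rcases g with (⟨s', c⟩ | ⟨s', c⟩) | i | _ | s' | _ | _
  · simp only [mat, val, decide_eq_true_eq] at h
    obtain ⟨h1, h2⟩ := h
    simp [rc, h1, h2]
  · simp only [mat, val, decide_eq_true_eq] at h
    rcases h with ⟨h1, h2⟩ | h1
    · rw [← h1] at h2
      have h3 : s'.val = s.val - 1 := by omega
      simp [rc, h3, h2]
    · cases c <;> simp [rc, h1]
  · simp [mat, val] at h
  · simp [rc]
  · simp only [mat, val, decide_eq_true_eq] at h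
    rcases h with ⟨h1, h2⟩ | ⟨h1, h2⟩
    · rw [← h1] at h2
      have h3 : s'.val = s.val - 1 := by omega
      simp only [rc]
      rw [show s'.val + 1 = s.val from h1.symm, h2, h3]
      simp
    · have h3 := cell_half s'.isLt x.1.val
      rw [h2, ← h1] at h3
      simp only [rc]
      have h4 : cell L (s'.val + 1) x.1 = 2 * cell L s.val y.1 ∨
          cell L (s'.val + 1) x.1 = 2 * cell L s.val y.1 + 1 := by
        rw [← h1]
        omega
      rcases h4 with h4 | h4
      · rw [h4, ← h1]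
        simp
      · rw [h4, ← h1]
        simp
  · simp [mat, val] at h
  · simp [rc]

theorem no_embed {L M : ℕ} (ρ : Fin 11 → Row L M) (γ : Fin 11 → Col L M)
    (h : ∀ i j, mat L M (ρ i) (γ j) = decide (i ≠ j)) (hρ : ∀ i k, (ρ i).g ≠ .sep k)
    (hγ : ∀ j k, (γ j).g ≠ .sep k) : False := by
  have injρ : Function.Injective (fun i => rc (ρ i)) := by
    intro i i' hii
    have h1 := mat_rc hii (γ i)
    rw [h, h] at h1
    by_contra hne
    simp [Ne.symm hne] at h1
  have injγ : Function.Injective (fun i => cc (γ i)) := by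
    intro i i' hii
    have h1 := mat_cc hii (ρ i)
    rw [h, h] at h1
    by_contra hne
    simp [hne] at h1
  have htrue : ∀ i j, j ≠ i → mat L M (ρ i) (γ j) = true := by
    intro i j hij
    rw [h]
    simpa using hij.symm
  -- no main rows
  have nomid : ∀ i s, (ρ i).g ≠ .mid s := by
    intro i s hi
    have e : ρ i = ⟨.mid s, (ρ i).x⟩ := by rw [← hi]
    refine pigeon injγ (i := i) (l := [(0, s.val + 1, bit L (s.val + 1) (ρ i).x.1, 0),
      (0, s.val, true, 0), (0, s.val, false, 0),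
      (1, s.val, bit L (s.val + 1) (ρ i).x.1, 0), (3, 0, false, 0),
      (4, s.val + 1, false, cell L (s.val + 1) (ρ i).x.1),
      (4, s.val, false, cell L s.val (ρ i).x.1)]) (by simp) fun j hj => ?_
    have h1 := htrue i j hj
    rw [e] at h1
    exact cc_of_mid h1
  have nolow : ∀ i, (ρ i).g ≠ .low := by
    intro i hi
    have e : ρ i = ⟨.low, (ρ i).x⟩ := by rw [← hi]
    refine pigeon injγ (i := i) (l := [(0, L, true, 0), (0, L, false, 0), (3, 0, false, 0)])
      (by simp) fun j hj => ?_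
    have h1 := htrue i j hj
    rw [e] at h1
    exact cc_of_low h1
  have nomid' : ∀ j s, (γ j).g ≠ .mid s := by
    intro j s hj
    have e : γ j = ⟨.mid s, (γ j).x⟩ := by rw [← hj]
    refine pigeon injρ (i := j) (l := [(0, s.val, bit L s.val (γ j).x.1, 0),
      (1, s.val - 1, bit L s.val (γ j).x.1, 0),
      (1, s.val, true, 0), (1, s.val, false, 0), (3, 0, false, 0), (6, 0, false, 0),
      (4, s.val - 1, false, cell L s.val (γ j).x.1),
      (4, s.val, false, 2 * cell L s.val (γ j).x.1),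
      (4, s.val, false, 2 * cell L s.val (γ j).x.1 + 1)]) (by simp) fun i hi => ?_
    have h1 := htrue i j (Ne.symm hi)
    rw [e] at h1
    exact rc_of_mid h1
  have nof : ∀ i κ, (ρ i).g ≠ .f κ := by
    intro i κ hi
    have e : ρ i = ⟨.f κ, (ρ i).x⟩ := by rw [← hi]
    have key : ∀ j, j ≠ i → cc (γ j) ∈ [(match κ with
        | .C s b => (0, s.val, b, 0)
        | .R s b => (1, s.val, b, 0) : ℕ × ℕ × Bool × ℕ), (3, 0, false, 0)] := by
      intro j hj
      have h1 := htrue i j hj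
      rw [e] at h1
      have h2 := nomid' j
      have h3 := hγ j
      rcases hγj : γ j with ⟨g, y⟩
      rw [hγj] at h1 h2 h3
      rcases g with κ' | k | _ | s | _
      · simp only [mat, val, decide_eq_true_eq] at h1
        subst h1
        rcases κ with ⟨s, b⟩ | ⟨s, b⟩ <;> simp [cc]
      · exact absurd rfl (h3 k)
      · simp [cc]
      · exact absurd rfl (h2 s)
      · simp [cc]
    exact pigeon injγ (i := i) (by simp) key
  refine pigeon injρ (i := 0) (l := [(3, 0, false, 0), (6, 0, false, 0)]) (by simp) fun i _ => ?_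
  have h1 := nomid i
  have h2 := nolow i
  have h3 := nof i
  have h4 := hρ i
  rcases hρi : ρ i with ⟨g, x⟩
  rw [hρi] at h1 h2 h3 h4
  rcases g with κ | k | _ | s | _ | _
  · exact absurd rfl (h3 κ)
  · exact absurd rfl (h4 k)
  · simp [rc, hρi]
  · exact absurd rfl (h1 s)
  · exact absurd rfl h2
  · simp [rc, hρi]

/-! ### main analysis -/

theorem sep_iff {L M : ℕ} {a : Row L M} {b : Col L M} (h : mat L M a b = true) :
    (∃ k, a.g = .sep k) ↔ (∃ k, b.g = .sep k) := by
  rcases a with ⟨g, x⟩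
  rcases b with ⟨g', z⟩
  rcases g with (⟨s, c⟩ | ⟨s, c⟩) | i | _ | s | _ | _ <;>
    rcases g' with (⟨s', c'⟩ | ⟨s', c'⟩) | i' | _ | s' | _ <;>
    simp_all [mat, val]

theorem mat_sep_row {L M : ℕ} {a : Row L M} {b : Col L M} {k k' : Fin 11} (ha : a.g = .sep k)
    (hb : b.g = .sep k') : mat L M a b = decide (k ≠ k') := by
  rw [mat, ha, hb]
  rfl

/-- entries of main rows in the reference and main columns of one level: type C -/
theorem mat_C {L M : ℕ} {σ : Fin L} {s : Fin (L + 1)} {x y : Loc L M}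
    (h : s.val = σ.val + 1 ∨ s.val = σ.val) :
    mat L M ⟨.mid σ, x⟩ ⟨.mid s, y⟩ = true ↔ cell L s.val x.1 = cell L s.val y.1 := by
  simp only [mat, val, decide_eq_true_eq]
  constructor
  · rintro (⟨h1, h2⟩ | ⟨h1, h2⟩)
    · rw [h1]
      exact h2
    · rw [h1]
      exact h2
  · intro h1
    rcases h with h | h
    · left
      rw [← h]
      exact ⟨rfl, h1⟩
    · right
      rw [← h]
      exact ⟨rfl, h1⟩

theorem mat_R {L M : ℕ} {σ : Fin L} {s : Fin (L + 1)} {x y : Loc L M} {b : Bool}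
    (hx : bit L (σ.val + 1) x.1 = b)
    (h : (s.val = σ.val + 1 ∧ bit L (σ.val + 1) y.1 = b) ∨ s.val = σ.val) :
    mat L M ⟨.mid σ, x⟩ ⟨.mid s, y⟩ = true ↔ cell L σ.val x.1 = cell L σ.val y.1 := by
  rcases h with ⟨h, hy⟩ | h
  · rw [mat_C (Or.inl h), h]
    exact cell_succ_eq_iff σ.isLt (hx.trans hy.symm)
  · rw [mat_C (Or.inr h), h]

theorem ring_C {L M : ℕ} (hL : 1 ≤ L) {s : Fin (L + 1)} {b : Bool} {z w : Loc L M}
    {a1 a2 a3 : Row L M} {b2 : Col L M} (h12 : a1 < a2) (h23 : a2 < a3)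
    (r1 : 2 ≤ a1.g.rank) (hb2 : 2 ≤ b2.g.rank)
    (e1 : mat L M a1 ⟨.e (.C s b), z⟩ = true) (e2 : mat L M a2 ⟨.e (.C s b), z⟩ = true)
    (e3 : mat L M a3 ⟨.e (.C s b), z⟩ = true) (f2 : mat L M ⟨.f (.C s b), w⟩ b2 = true)
    (m1 : mat L M a1 b2 = true) (m2 : mat L M a2 b2 = false) (m3 : mat L M a3 b2 = true) :
    a1.g = .mid ⟨L - 1, by omega⟩ ∧ b2.g = .mid (Fin.last L) ∧ a1.x.1 = b2.x.1 := by
  have r2 := row_rank_le h12
  have r3 := row_rank_le h23
  rcases b2 with ⟨h2, y⟩
  rcases a1 with ⟨g1, x1⟩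
  rcases a2 with ⟨g2, x2⟩
  rcases a3 with ⟨g3, x3⟩
  -- the middle column is a main column of level s
  have hcol : h2 = .mid s := by
    rcases h2 with κ | k | _ | s' | _
    · simp [CG.rank] at hb2
    · simp [CG.rank] at hb2
    · rcases g2 with κ | k | _ | σ | _ | _ <;> simp_all [RG.rank, mat, val]
    · simp only [mat, val, decide_eq_true_eq] at f2
      exact congrArg _ (Fin.ext f2.1)
    · rcases g2 with κ | k | _ | σ | _ | _ <;> simp_all [RG.rank, mat, val]
  subst hcol
  -- level 0 is impossible when a main row takes part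
  have lev : ∀ (σ : Fin L) (x : Loc L M), mat L M ⟨.mid σ, x⟩ ⟨.e (.C s b), z⟩ = true →
      (s.val = σ.val + 1 ∨ s.val = σ.val) := by
    intro σ x h
    simp only [mat, val, decide_eq_true_eq] at h
    rcases h with h | h
    · exact Or.inl h.1
    · exact Or.inr h
  have zero : ∀ (σ : Fin L) (x : Loc L M), mat L M ⟨.mid σ, x⟩ ⟨.e (.C s b), z⟩ = true →
      s.val = 0 → mat L M ⟨.mid σ, x⟩ ⟨.mid s, y⟩ = true := by
    intro σ x h h0
    rw [mat_C (lev σ x h), h0, cell_zero x.1.isLt, cell_zero y.1.isLt]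
  have concl : ∀ (σ : Fin L) (x : Loc L M), mat L M ⟨.mid σ, x⟩ ⟨.e (.C s b), z⟩ = true →
      mat L M ⟨.mid σ, x⟩ ⟨.mid s, y⟩ = true → s.val = L →
      (RG.mid σ : RG L) = .mid ⟨L - 1, by omega⟩ ∧ (CG.mid s : CG L) = .mid (Fin.last L) ∧
        x.1 = y.1 := by
    intro σ x h h' hs
    have h1 := lev σ x h
    have h2 := σ.isLt
    refine ⟨congrArg _ (Fin.ext ?_), congrArg _ (Fin.ext ?_), ?_⟩
    · simp only
      omega
    · rw [hs, Fin.val_last]
    · rw [mat_C h1, hs, cell_last, cell_last] at h'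
      exact Fin.ext h'
  rcases g2 with κ | k | _ | σ2 | _ | _
  · simp only [RG.rank] at r1 r2
    omega
  · simp only [RG.rank] at r1 r2
    omega
  · simp [mat, val] at m2
  · rcases g1 with κ | k | _ | σ1 | _ | _
    · simp [RG.rank] at r1
    · simp [RG.rank] at r1
    · have h0 : s.val = 0 := by simpa [mat, val] using e1
      rw [zero σ2 x2 e2 h0] at m2
      simp at m2
    · rcases g3 with κ | k | _ | σ3 | _ | _
      · simp [RG.rank] at r3
      · simp [RG.rank] at r3
      · simp [RG.rank] at r3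
      · exfalso
        have c1 := (mat_C (lev σ1 x1 e1)).1 m1
        have c3 := (mat_C (lev σ3 x3 e3)).1 m3
        have l12 := row_mid_le h12
        have l23 := row_mid_le h23
        have d1 := cell_mono L s.val (Fin.le_def.1 l12)
        have d2 := cell_mono L s.val (Fin.le_def.1 l23)
        have c2 : cell L s.val x2.1 = cell L s.val y.1 := by omega
        rw [(mat_C (lev σ2 x2 e2)).2 c2] at m2
        simp at m2
      · simp [mat, val] at m3
      · have h0 : s.val = 0 ∨ s.val = L := by simpa [mat, val] using e3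
        rcases h0 with h0 | h0
        · rw [zero σ2 x2 e2 h0] at m2
          simp at m2
        · exact concl σ1 x1 e1 m1 h0
    · simp [RG.rank] at r2
    · simp [RG.rank] at r2
  · have hs : s.val = L := by simpa [mat, val] using e2
    rcases g1 with κ | k | _ | σ1 | _ | _
    · simp [RG.rank] at r1
    · simp [RG.rank] at r1
    · have h0 : s.val = 0 := by simpa [mat, val] using e1
      omega
    · exact concl σ1 x1 e1 m1 hs
    · simp [mat, val] at m1
    · simp [RG.rank] at r2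
  · simp [mat, val] at m2

theorem ring_R {L M : ℕ} {s : Fin L} {b : Bool} {z w : Loc L M}
    {a2 : Row L M} {b1 b2 b3 : Col L M} (h12 : b1 < b2) (h23 : b2 < b3)
    (r2 : 2 ≤ a2.g.rank) (hb1 : 2 ≤ b1.g.rank)
    (e2 : mat L M a2 ⟨.e (.R s b), z⟩ = true)
    (f1 : mat L M ⟨.f (.R s b), w⟩ b1 = true) (f2 : mat L M ⟨.f (.R s b), w⟩ b2 = true)
    (f3 : mat L M ⟨.f (.R s b), w⟩ b3 = true)
    (m1 : mat L M a2 b1 = true) (m2 : mat L M a2 b2 = false) (m3 : mat L M a2 b3 = true) :
    False := by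
  have q2 := col_rank_le h12
  have q3 := col_rank_le h23
  have hcol : ∀ c : Col L M, 2 ≤ c.g.rank → mat L M ⟨.f (.R s b), w⟩ c = true →
      ∃ s' : Fin (L + 1), c.g = .mid s' ∧
        ((s'.val = s.val + 1 ∧ bit L (s.val + 1) c.x.1 = b) ∨ s'.val = s.val) := by
    rintro ⟨g, y⟩ hr hf
    rcases g with κ | k | _ | s' | _
    · simp [CG.rank] at hr
    · simp [CG.rank] at hr
    · simp [mat, val] at hf
    · exact ⟨s', rfl, by simpa [mat, val] using hf⟩
    · simp [mat, val] at hf
  obtain ⟨s1, g1, k1⟩ := hcol b1 hb1 f1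
  obtain ⟨s2, g2, k2⟩ := hcol b2 (hb1.trans q2) f2
  obtain ⟨s3, g3, k3⟩ := hcol b3 ((hb1.trans q2).trans q3) f3
  rcases b1 with ⟨h1, y1⟩
  rcases b2 with ⟨h2, y2⟩
  rcases b3 with ⟨h3, y3⟩
  simp only at g1 g2 g3 k1 k2 k3
  subst g1 g2 g3
  rcases a2 with ⟨g, x⟩
  rcases g with κ | k | _ | σ | _ | _
  · simp [RG.rank] at r2
  · simp [RG.rank] at r2
  · simp [mat, val] at m2
  · simp only [mat, val, decide_eq_true_eq] at e2
    obtain ⟨e, hbit⟩ := e2
    have hσ : σ = s := Fin.ext e.symm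
    subst hσ
    have c1 := (mat_R hbit k1).1 m1
    have c3 := (mat_R hbit k3).1 m3
    have l12 := col_mid_le h12
    have l23 := col_mid_le h23
    have d1 := cell_mono L σ.val (Fin.le_def.1 l12)
    have d2 := cell_mono L σ.val (Fin.le_def.1 l23)
    have c2 : cell L σ.val x.1 = cell L σ.val y2.1 := by omega
    rw [(mat_R hbit k2).2 c2] at m2
    simp at m2
  · simp [mat, val] at e2
  · simp [mat, val] at m2

theorem copy_tiny {L M : ℕ} (hL : 1 ≤ L) {r : Fin 15 → Row L M} {c : Fin 15 → Col L M}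
    (h : IsCopy H (mat L M) r c) :
    (r 12).g = RG.mid ⟨L - 1, by omega⟩ ∧ (c 13).g = CG.mid (Fin.last L) ∧
      (r 12).x.1 = (c 13).x.1 := by
  obtain ⟨hr, hc, hm⟩ := h
  have hP : ∀ P Q : Part, mat L M (r (idx P)) (c (idx Q)) = Hp P Q := fun P Q => by
    rw [hm, H_idx]
  have hsep : ∀ i j : Fin 11, mat L M (r (idx (.sep i))) (c (idx (.sep j))) = decide (i ≠ j) :=
    fun i j => hP _ _
  -- status of the separators
  have stat : ∀ i j : Fin 11, i ≠ j →
      ((∃ k, (r (idx (.sep i))).g = .sep k) ↔ (∃ k, (c (idx (.sep j))).g = .sep k)) := by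
    intro i j hij
    refine sep_iff ?_
    rw [hsep]
    simpa using hij
  have third : ∀ i j : Fin 11, ∃ k, k ≠ i ∧ k ≠ j := by decide
  have allrow : ∀ i j : Fin 11, (∃ k, (r (idx (.sep i))).g = .sep k) ↔
      (∃ k, (r (idx (.sep j))).g = .sep k) := by
    intro i j
    obtain ⟨k, hk1, hk2⟩ := third i j
    exact (stat i k hk1.symm).trans (stat j k hk2.symm).symm
  have sep0 : ∃ k, (r (idx (.sep 0))).g = .sep k := by
    by_contra hno
    refine no_embed (fun i => r (idx (.sep i))) (fun i => c (idx (.sep i))) hsep ?_ ?_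
    · intro i k hk
      exact hno ((allrow i 0).1 ⟨k, hk⟩)
    · intro j k hk
      obtain ⟨i, hi, _⟩ := third j j
      exact hno ((allrow i 0).1 ((stat i j hi).2 ⟨k, hk⟩))
  have sepr : ∀ i : Fin 11, ∃ k, (r (idx (.sep i))).g = .sep k := fun i => (allrow 0 i).1 sep0
  have sepc : ∀ j : Fin 11, ∃ k, (c (idx (.sep j))).g = .sep k := fun j => by
    obtain ⟨i, hi, _⟩ := third j j
    exact (stat i j hi).1 (sepr i)
  choose g hg using sepr
  choose g' hg' using sepc
  have hgg : ∀ i j, (g i = g' j ↔ i = j) := by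
    intro i j
    have h1 := hsep i j
    rw [mat_sep_row (hg i) (hg' j), decide_eq_decide] at h1
    exact not_iff_not.1 h1
  -- the other rows and columns are not separators
  have nsr : ∀ P : Part, (∀ j, Hp P (.sep j) = false) → ∀ k, (r (idx P)).g ≠ .sep k := by
    intro P hHp k hk
    have h1 : ∀ j, k = g' j := by
      intro j
      have h2 := hP P (.sep j)
      rw [mat_sep_row hk (hg' j), hHp] at h2
      simpa using h2
    have h3 : g' 0 = g' 1 := (h1 0).symm.trans (h1 1)
    have h4 := (hgg 0 0).2 rfl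
    have h5 := (hgg 0 1).1 (h4.trans h3)
    simp at h5
  have nsc : ∀ P : Part, (∀ j, Hp (.sep j) P = false) → ∀ k, (c (idx P)).g ≠ .sep k := by
    intro P hHp k hk
    have h1 : ∀ j, g j = k := by
      intro j
      have h2 := hP (.sep j) P
      rw [mat_sep_row (hg j) hk, hHp] at h2
      simpa using h2
    have h3 : g 0 = g 1 := (h1 0).trans (h1 1).symm
    have h4 := (hgg 1 1).2 rfl
    have h5 := (hgg 0 1).1 (h3.trans h4)
    simp at h5
  -- block numbers
  have rk0 : ∀ i, (r (idx (.sep i))).g.rank = 1 := fun i => by rw [hg]; rfl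
  have ck0 : ∀ i, (c (idx (.sep i))).g.rank = 1 := fun i => by rw [hg']; rfl
  have rref : ∃ κ, (r (idx .ref)).g = .f κ := by
    have h1 : r (idx .ref) < r (idx (.sep 0)) := hr (by decide)
    have h2 := row_rank_le h1
    rw [rk0] at h2
    have h3 := nsr .ref (fun j => rfl)
    rcases hx : (r (idx .ref)).g with κ | k | _ | s | _ | _
    · exact ⟨κ, rfl⟩
    · exact absurd hx (h3 k)
    all_goals
      rw [hx] at h2
      simp [RG.rank] at h2
  have cref : ∃ κ, (c (idx .ref)).g = .e κ := by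
    have h1 : c (idx .ref) < c (idx (.sep 0)) := hc (by decide)
    have h2 := col_rank_le h1
    rw [ck0] at h2
    have h3 := nsc .ref (fun j => rfl)
    rcases hx : (c (idx .ref)).g with κ | k | _ | s | _
    · exact ⟨κ, rfl⟩
    · exact absurd hx (h3 k)
    all_goals
      rw [hx] at h2
      simp [CG.rank] at h2
  have rp1 : 2 ≤ (r (idx .p1)).g.rank := by
    have h1 : r (idx (.sep 10)) < r (idx .p1) := hr (by decide)
    have h2 := row_rank_le h1
    rw [rk0] at h2
    have h3 := nsr .p1 (fun j => rfl)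
    rcases hx : (r (idx .p1)).g with κ | k | _ | s | _ | _
    · rw [hx] at h2
      simp [RG.rank] at h2
    · exact absurd hx (h3 k)
    all_goals simp [RG.rank]
  have cp1 : 2 ≤ (c (idx .p1)).g.rank := by
    have h1 : c (idx (.sep 10)) < c (idx .p1) := hc (by decide)
    have h2 := col_rank_le h1
    rw [ck0] at h2
    have h3 := nsc .p1 (fun j => rfl)
    rcases hx : (c (idx .p1)).g with κ | k | _ | s | _
    · rw [hx] at h2
      simp [CG.rank] at h2
    · exact absurd hx (h3 k)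
    all_goals simp [CG.rank]
  have r12 : r (idx .p1) < r (idx .p2) := hr (by decide)
  have r23 : r (idx .p2) < r (idx .p3) := hr (by decide)
  have c12 : c (idx .p1) < c (idx .p2) := hc (by decide)
  have c23 : c (idx .p2) < c (idx .p3) := hc (by decide)
  obtain ⟨κ, hκ⟩ := rref
  obtain ⟨κ', hκ'⟩ := cref
  have hκκ : κ = κ' := by
    have h1 := hP .ref .ref
    rw [mat, hκ, hκ'] at h1
    simpa [val, Hp] using h1
  subst hκκ
  have er : r (idx .ref) = ⟨.f κ, (r (idx .ref)).x⟩ := by rw [← hκ]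
  have ec : c (idx .ref) = ⟨.e κ, (c (idx .ref)).x⟩ := by rw [← hκ']
  have E : ∀ P : Part, mat L M (r (idx P)) ⟨.e κ, (c (idx .ref)).x⟩ = Hp P .ref := fun P => by
    rw [← ec, hP]
  have F : ∀ P : Part, mat L M ⟨.f κ, (r (idx .ref)).x⟩ (c (idx P)) = Hp .ref P := fun P => by
    rw [← er, hP]
  rcases κ with ⟨s, b⟩ | ⟨s, b⟩
  · exact ring_C hL r12 r23 rp1 (cp1.trans (col_rank_le c12)) (E .p1) (E .p2) (E .p3) (F .p2)
      (hP .p1 .p2) (hP .p2 .p2) (hP .p3 .p2)
  · exact (ring_R c12 c23 (rp1.trans (row_rank_le r12)) cp1 (E .p2) (F .p1) (F .p2) (F .p3)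
      (hP .p2 .p1) (hP .p2 .p2) (hP .p2 .p3)).elim

end P037
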