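import Vale.Agent.P037.Defs

/-!
P037: facts about the orders and the numbers of rows and columns.
-/

namespace P037

theorem row_lt_iff {L M : ℕ} {a b : Row L M} : a < b ↔ rkey a < rkey b := Iff.rfl

theorem col_lt_iff {L M : ℕ} {a b : Col L M} : a < b ↔ ckey a < ckey b := Iff.rfl

theorem rkey_fst {L M : ℕ} (a : Row L M) : (ofLex (rkey a)).1 = a.g.rank := by
  rcases a with ⟨g, x⟩
  cases g <;> rfl

theorem ckey_fst {L M : ℕ} (a : Col L M) : (ofLex (ckey a)).1 = a.g.rank := by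
  rcases a with ⟨g, x⟩
  cases g <;> rfl

theorem row_rank_le {L M : ℕ} {a b : Row L M} (h : a < b) : a.g.rank ≤ b.g.rank := by
  rw [row_lt_iff, Prod.Lex.lt_iff, rkey_fst, rkey_fst] at h
  rcases h with h | h
  · exact h.le
  · exact h.1.le

theorem col_rank_le {L M : ℕ} {a b : Col L M} (h : a < b) : a.g.rank ≤ b.g.rank := by
  rw [col_lt_iff, Prod.Lex.lt_iff, ckey_fst, ckey_fst] at h
  rcases h with h | h
  · exact h.le
  · exact h.1.le

theorem row_lt_of_rank {L M : ℕ} {a b : Row L M} (h : a.g.rank < b.g.rank) : a < b := by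
  rw [row_lt_iff, Prod.Lex.lt_iff, rkey_fst, rkey_fst]
  exact Or.inl h

theorem col_lt_of_rank {L M : ℕ} {a b : Col L M} (h : a.g.rank < b.g.rank) : a < b := by
  rw [col_lt_iff, Prod.Lex.lt_iff, ckey_fst, ckey_fst]
  exact Or.inl h

theorem row_mid_le {L M : ℕ} {s s' : Fin L} {x y : Loc L M}
    (h : (⟨.mid s, x⟩ : Row L M) < ⟨.mid s', y⟩) : x.1 ≤ y.1 := by
  rw [row_lt_iff] at h
  simp only [rkey, Prod.Lex.toLex_lt_toLex] at h
  rcases h with h | h
  · exact absurd h (lt_irrefl _)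
  · rcases h.2 with h2 | h2
    · exact Fin.le_def.2 h2.le
    · exact Fin.le_def.2 h2.1.le

theorem col_mid_le {L M : ℕ} {s s' : Fin (L + 1)} {x y : Loc L M}
    (h : (⟨.mid s, x⟩ : Col L M) < ⟨.mid s', y⟩) : x.1 ≤ y.1 := by
  rw [col_lt_iff] at h
  simp only [ckey, Prod.Lex.toLex_lt_toLex] at h
  rcases h with h | h
  · exact absurd h (lt_irrefl _)
  · rcases h.2 with h2 | h2
    · exact Fin.le_def.2 h2.le
    · exact Fin.le_def.2 h2.1.le

theorem row_mid_lt {L M : ℕ} {s s' : Fin L} {t : Fin (2 ^ L)} {u v : Fin M} (h : u < v) :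
    (⟨.mid s, (t, u)⟩ : Row L M) < ⟨.mid s', (t, v)⟩ := by
  rw [row_lt_iff]
  simp only [rkey, Prod.Lex.toLex_lt_toLex]
  exact Or.inr ⟨trivial, Or.inr ⟨trivial, Or.inl h⟩⟩

theorem col_mid_lt {L M : ℕ} {s s' : Fin (L + 1)} {t : Fin (2 ^ L)} {u v : Fin M} (h : u < v) :
    (⟨.mid s, (t, u)⟩ : Col L M) < ⟨.mid s', (t, v)⟩ := by
  rw [col_lt_iff]
  simp only [ckey, Prod.Lex.toLex_lt_toLex]
  exact Or.inr ⟨trivial, Or.inr ⟨trivial, Or.inl h⟩⟩

theorem row_sep_lt {L M : ℕ} {i j : Fin 11} {x : Loc L M} (h : i < j) :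
    (⟨.sep i, x⟩ : Row L M) < ⟨.sep j, x⟩ := by
  rw [row_lt_iff]
  simp only [rkey, Prod.Lex.toLex_lt_toLex]
  exact Or.inr ⟨trivial, Or.inl h⟩

theorem col_sep_lt {L M : ℕ} {i j : Fin 11} {x : Loc L M} (h : i < j) :
    (⟨.sep i, x⟩ : Col L M) < ⟨.sep j, x⟩ := by
  rw [col_lt_iff]
  simp only [ckey, Prod.Lex.toLex_lt_toLex]
  exact Or.inr ⟨trivial, Or.inl h⟩

/-! ### Cardinalities -/

/-- the reference indices as a sum -/
def refEquiv (L : ℕ) : Ref L ≃ (Fin (L + 1) × Bool) ⊕ (Fin L × Bool) where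
  toFun
    | .C s b => Sum.inl (s, b)
    | .R s b => Sum.inr (s, b)
  invFun
    | Sum.inl (s, b) => .C s b
    | Sum.inr (s, b) => .R s b
  left_inv := by rintro (⟨s, b⟩ | ⟨s, b⟩) <;> rfl
  right_inv := by rintro (⟨s, b⟩ | ⟨s, b⟩) <;> rfl

/-- the row groups as a sum -/
def rgEquiv (L : ℕ) : RG L ≃ (Ref L ⊕ Fin 11) ⊕ (Fin L ⊕ Fin 3) where
  toFun
    | .f κ => Sum.inl (Sum.inl κ)
    | .sep i => Sum.inl (Sum.inr i)
    | .top => Sum.inr (Sum.inr 0)
    | .mid s => Sum.inr (Sum.inl s)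
    | .low => Sum.inr (Sum.inr 1)
    | .bot => Sum.inr (Sum.inr 2)
  invFun
    | Sum.inl (Sum.inl κ) => .f κ
    | Sum.inl (Sum.inr i) => .sep i
    | Sum.inr (Sum.inl s) => .mid s
    | Sum.inr (Sum.inr 0) => .top
    | Sum.inr (Sum.inr 1) => .low
    | Sum.inr (Sum.inr 2) => .bot
  left_inv := by rintro (κ | i | _ | s | _ | _) <;> rfl
  right_inv := by
    rintro ((κ | i) | (s | j))
    · rfl
    · rfl
    · rfl
    · fin_cases j <;> rfl

/-- the column groups as a sum -/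
def cgEquiv (L : ℕ) : CG L ≃ (Ref L ⊕ Fin 11) ⊕ (Fin (L + 1) ⊕ Fin 2) where
  toFun
    | .e κ => Sum.inl (Sum.inl κ)
    | .sep i => Sum.inl (Sum.inr i)
    | .cm => Sum.inr (Sum.inr 0)
    | .mid s => Sum.inr (Sum.inl s)
    | .cp => Sum.inr (Sum.inr 1)
  invFun
    | Sum.inl (Sum.inl κ) => .e κ
    | Sum.inl (Sum.inr i) => .sep i
    | Sum.inr (Sum.inl s) => .mid s
    | Sum.inr (Sum.inr 0) => .cm
    | Sum.inr (Sum.inr 1) => .cp
  left_inv := by rintro (κ | i | _ | s | _) <;> rfl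
  right_inv := by
    rintro ((κ | i) | (s | j))
    · rfl
    · rfl
    · rfl
    · fin_cases j <;> rfl

/-- rows as pairs -/
def rowEquiv (L M : ℕ) : Row L M ≃ RG L × Loc L M where
  toFun a := (a.g, a.x)
  invFun p := ⟨p.1, p.2⟩
  left_inv _ := rfl
  right_inv _ := rfl

/-- columns as pairs -/
def colEquiv (L M : ℕ) : Col L M ≃ CG L × Loc L M where
  toFun a := (a.g, a.x)
  invFun p := ⟨p.1, p.2⟩
  left_inv _ := rfl
  right_inv _ := rfl

theorem card_Ref (L : ℕ) : Fintype.card (Ref L) = 4 * L + 2 := by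
  rw [Fintype.card_congr (refEquiv L)]
  simp only [Fintype.card_sum, Fintype.card_prod, Fintype.card_fin, Fintype.card_bool]
  ring

theorem card_RG (L : ℕ) : Fintype.card (RG L) = G L := by
  rw [Fintype.card_congr (rgEquiv L)]
  simp only [Fintype.card_sum, Fintype.card_fin, card_Ref, G]
  ring

theorem card_CG (L : ℕ) : Fintype.card (CG L) = G L := by
  rw [Fintype.card_congr (cgEquiv L)]
  simp only [Fintype.card_sum, Fintype.card_fin, card_Ref, G]
  ring

theorem card_Row (L M : ℕ) : Fintype.card (Row L M) = N L M := by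
  rw [Fintype.card_congr (rowEquiv L M), Fintype.card_prod, card_RG, Fintype.card_prod,
    Fintype.card_fin, Fintype.card_fin, N]

theorem card_Col (L M : ℕ) : Fintype.card (Col L M) = N L M := by
  rw [Fintype.card_congr (colEquiv L M), Fintype.card_prod, card_CG, Fintype.card_prod,
    Fintype.card_fin, Fintype.card_fin, N]

end P037
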